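import Vale.Agent.P315.H295.Step11

/-!
P315, rows C-H3 / M2-H3: the classes of the machines and the activity range, for a system of
curves `S` and machine values `R`, with a ratio `r` between the normalised drop seen by the
machine and the drop `R.m` (`r = 1` for the additive theorem, `r = W / (K_s Z)` for the
multiplicative one), and the union of the classes.
-/

set_option autoImplicit false

open Finset

namespace Vale.Agent.P315.H295

open Vale.Agent.P315.Acc

variable {X : Type} [Fintype X] [Nonempty X] {S : Sys X}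

/-- The block has class `l` in units of `1 / r`. -/
def clsR (R : Mach S) (r : ℕ → ℕ → X → ℝ) (o s a l : ℕ) (x : X) (k : ℕ) : Prop :=
  (1 / 2 : ℝ) ^ (l + 1) ≤ r s a x * R.m o s a x k ∧ r s a x * R.m o s a x k < (1 / 2 : ℝ) ^ l

/-- The class `l` meets the activity range. -/
def lamR (r : ℕ → ℕ → X → ℝ) (th th' : ℕ → ℝ) (s a : ℕ) (x : X) (l : ℕ) : Prop :=
  3 / 4 * th s * r s a x < (1 / 2 : ℝ) ^ l ∧ (1 / 2 : ℝ) ^ (l + 1) ≤ 5 / 4 * th' s * r s a x

/-- Activity. -/
def actR (R : Mach S) (NL : ℕ → ℕ) (r : ℕ → ℕ → X → ℝ) (th th' : ℕ → ℝ) (o s a : ℕ) (x : X)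
    (k : ℕ) : Prop :=
  (a < S.na s → ∃ l < NL s, lamR r th th' s a x l ∧ clsR R r o s a l x k) ∧
  (¬ a < S.na s → 3 / 4 * th s ≤ R.m o s a x k ∧ R.m o s a x k ≤ 5 / 4 * th' s)

/-- Conditions on the ratio. -/
structure RatOK (S : Sys X) (NL : ℕ → ℕ) (r : ℕ → ℕ → X → ℝ) (th th' : ℕ → ℝ) : Prop where
  meas : ∀ s a x y, S.q ((a + 1) * 2 ^ s) x = S.q ((a + 1) * 2 ^ s) y → r s a x = r s a y
  lo : ∀ s a x, 1 ≤ s → s ≤ S.smax → a < S.na s → 1 / 8 ≤ r s a x
  hi : ∀ s a x, 1 ≤ s → s ≤ S.smax → a < S.na s → r s a x ≤ 1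
  th_pos : ∀ s, 0 < th s
  th'_lt : ∀ s, 1 ≤ s → s ≤ S.smax → 5 / 4 * th' s < 1
  NL_ge : ∀ s, 1 ≤ s → s ≤ S.smax → (1 / 2 : ℝ) ^ NL s ≤ 3 / 32 * th s

/-- The ratio `1`. -/
theorem RatOK.one {NL : ℕ → ℕ} {th th' : ℕ → ℝ} (h1 : ∀ s, 0 < th s)
    (h2 : ∀ s, 1 ≤ s → s ≤ S.smax → 5 / 4 * th' s < 1)
    (h3 : ∀ s, 1 ≤ s → s ≤ S.smax → (1 / 2 : ℝ) ^ NL s ≤ 3 / 32 * th s) :
    RatOK S NL (fun _ _ _ => 1) th th' where
  meas := fun _ _ _ _ _ => rfl
  lo := fun _ _ _ _ _ _ => by norm_num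
  hi := fun _ _ _ _ _ _ => le_rfl
  th_pos := h1
  th'_lt := h2
  NL_ge := h3

/-- The class of a number in `(0, 1)`. -/
theorem exists_class {v : ℝ} (h0 : 0 < v) (h1 : v < 1) :
    ∃ l : ℕ, (1 / 2 : ℝ) ^ (l + 1) ≤ v ∧ v < (1 / 2 : ℝ) ^ l := by
  classical
  have hex : ∃ l : ℕ, (1 / 2 : ℝ) ^ (l + 1) ≤ v := by
    obtain ⟨l, hl⟩ := exists_pow_lt_of_lt_one h0 (by norm_num : (1 / 2 : ℝ) < 1)
    refine ⟨l, ?_⟩
    rw [pow_succ]
    have : (0 : ℝ) < (1 / 2) ^ l := by positivity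
    linarith
  refine ⟨Nat.find hex, Nat.find_spec hex, ?_⟩
  rcases Nat.eq_zero_or_pos (Nat.find hex) with h | h
  · rw [h, pow_zero]; exact h1
  · have h2 := Nat.find_min hex (m := Nat.find hex - 1) (by omega)
    rw [Nat.sub_add_cancel h] at h2
    exact not_le.1 h2

/-- The classes are disjoint. -/
theorem class_unique {v : ℝ} {l l' : ℕ} (h : (1 / 2 : ℝ) ^ (l + 1) ≤ v ∧ v < (1 / 2 : ℝ) ^ l)
    (h' : (1 / 2 : ℝ) ^ (l' + 1) ≤ v ∧ v < (1 / 2 : ℝ) ^ l') : l = l' := by
  have key : ∀ {a b : ℕ}, (1 / 2 : ℝ) ^ (a + 1) ≤ v → v < (1 / 2 : ℝ) ^ b → b ≤ a := by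
    intro a b h1 h2
    by_contra hc
    have h3 : (1 / 2 : ℝ) ^ b ≤ (1 / 2 : ℝ) ^ (a + 1) :=
      pow_le_pow_of_le_one (by norm_num) (by norm_num) (by omega)
    linarith
  exact le_antisymm (key h'.1 h.2) (key h.1 h'.2)

theorem RatOK.pos {NL : ℕ → ℕ} {r : ℕ → ℕ → X → ℝ} {th th' : ℕ → ℝ} (H : RatOK S NL r th th')
    {s a : ℕ} (h1 : 1 ≤ s) (h2 : s ≤ S.smax) (ha : a < S.na s) (x : X) : 0 < r s a x := by
  have := H.lo s a x h1 h2 ha
  linarith

/-- **Thresholds and activity** of the machines. -/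
noncomputable def thrR (R : Mach S) {NL : ℕ → ℕ} {r : ℕ → ℕ → X → ℝ} {th th' : ℕ → ℝ}
    (H : RatOK S NL r th th') (ht : ∀ s, 1 ≤ s → s ≤ S.smax → 1000 * R.tau s ≤ th s) :
    Thr S R where
  th := th
  th' := th'
  c := th'
  act := actR R NL r th th'
  th_pos := H.th_pos
  tau_le := ht
  act_meas := by
    intro o s a x y k hxy
    have h1 := H.meas s a x y hxy
    have h2 : R.m o s a x k = R.m o s a y k := by
      unfold Mach.m
      rw [R.omMeas s a x y hxy]
    unfold actR lamR clsR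
    rw [h1, h2]
  act_of := by
    intro o s a x k h1 h2 h3 h4
    refine ⟨fun ha => ?_, fun _ => ⟨h3, h4⟩⟩
    have hlo := H.lo s a x h1 h2 ha
    have hhi := H.hi s a x h1 h2 ha
    have hr := H.pos h1 h2 ha x
    have hth := H.th_pos s
    have hm0 : 0 < R.m o s a x k := by linarith
    have hv0 : 0 < r s a x * R.m o s a x k := mul_pos hr hm0
    have hv1 : r s a x * R.m o s a x k < 1 := by
      have := H.th'_lt s h1 h2
      nlinarith
    obtain ⟨l, hl1, hl2⟩ := exists_class hv0 hv1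
    have e1 : 3 / 4 * th s * r s a x ≤ r s a x * R.m o s a x k := by nlinarith
    have e2 : r s a x * R.m o s a x k ≤ 5 / 4 * th' s * r s a x := by nlinarith
    refine ⟨l, ?_, ⟨lt_of_le_of_lt e1 hl2, hl1.trans e2⟩, hl1, hl2⟩
    by_contra hc
    have h5 : (1 / 2 : ℝ) ^ l ≤ (1 / 2 : ℝ) ^ NL s :=
      pow_le_pow_of_le_one (by norm_num) (by norm_num) (by omega)
    have h6 := H.NL_ge s h1 h2
    have h7 : 3 / 32 * th s ≤ 3 / 4 * th s * r s a x := by nlinarith
    linarith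
  act_low := by
    intro o s a x k h1 h2 hact
    have hth := H.th_pos s
    by_cases ha : a < S.na s
    · obtain ⟨l, _, hl, hc⟩ := hact.1 ha
      have hr := H.pos h1 h2 ha x
      have e1 : 3 / 8 * th s * r s a x ≤ r s a x * R.m o s a x k := by
        have h3 := hc.1
        rw [pow_succ] at h3
        have h4 := hl.1
        linarith
      have e2 : r s a x * (3 / 8 * th s) ≤ r s a x * R.m o s a x k := by linarith
      exact le_of_mul_le_mul_left e2 hr
    · have := (hact.2 ha).1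
      linarith
  act_up := by
    intro o s a x k h1 h2 hact
    have hth := H.th_pos s
    by_cases ha : a < S.na s
    · obtain ⟨l, _, hl, hc⟩ := hact.1 ha
      have hr := H.pos h1 h2 ha x
      have hp : (0 : ℝ) < (1 / 2) ^ (l + 1) := by positivity
      have h4 : 0 < th' s := by
        have h5 := hl.2
        have h6 : 0 < 5 / 4 * th' s * r s a x := lt_of_lt_of_le hp h5
        have h7 : 0 < 5 / 4 * th' s := pos_of_mul_pos_left h6 hr.le
        linarith
      have e1 : r s a x * R.m o s a x k ≤ r s a x * (5 / 2 * th' s) := by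
        have h3 := hc.2
        have h5 := hl.2
        rw [pow_succ] at h5
        linarith
      have e2 := le_of_mul_le_mul_left e1 hr
      linarith
    · have h3 := (hact.2 ha).1
      have h4 := (hact.2 ha).2
      have : 0 < R.m o s a x k := by linarith
      linarith

/-! ### The union of the classes -/

/-- The classes that can be active, for any ratio. -/
noncomputable def Ls (NL : ℕ → ℕ) (th th' : ℕ → ℝ) (s : ℕ) : Finset ℕ :=
  (range (NL s)).filter fun l => 3 / 32 * th s < (1 / 2 : ℝ) ^ l ∧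
    (1 / 2 : ℝ) ^ (l + 1) ≤ 5 / 4 * th' s

theorem mem_Ls {NL : ℕ → ℕ} {th th' : ℕ → ℝ} {s l : ℕ} : l ∈ Ls NL th th' s ↔
    l < NL s ∧ 3 / 32 * th s < (1 / 2 : ℝ) ^ l ∧ (1 / 2 : ℝ) ^ (l + 1) ≤ 5 / 4 * th' s := by
  unfold Ls
  rw [mem_filter, mem_range]

theorem lamR_mem_Ls {NL : ℕ → ℕ} {r : ℕ → ℕ → X → ℝ} {th th' : ℕ → ℝ} (H : RatOK S NL r th th')
    {s a : ℕ} (h1 : 1 ≤ s) (h2 : s ≤ S.smax) (ha : a < S.na s) {x : X} {l : ℕ} (hl : l < NL s)
    (h : lamR r th th' s a x l) : l ∈ Ls NL th th' s := by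
  have hlo := H.lo s a x h1 h2 ha
  have hhi := H.hi s a x h1 h2 ha
  have hr := H.pos h1 h2 ha x
  have hth := H.th_pos s
  have hp : (0 : ℝ) < (1 / 2) ^ (l + 1) := by positivity
  have h4 : 0 < 5 / 4 * th' s := pos_of_mul_pos_left (lt_of_lt_of_le hp h.2) hr.le
  refine mem_Ls.2 ⟨hl, ?_, ?_⟩
  · have : 3 / 32 * th s ≤ 3 / 4 * th s * r s a x := by nlinarith
    exact lt_of_le_of_lt this h.1
  · have : 5 / 4 * th' s * r s a x ≤ 5 / 4 * th' s := by nlinarith
    exact h.2.trans this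

/-- The number of the classes in the range. -/
theorem card_Ls_le {NL : ℕ → ℕ} {th th' : ℕ → ℝ} {s q : ℕ}
    (h : 5 / 4 * th' s * (1 / 2 : ℝ) ^ q ≤ 3 / 64 * th s) : (Ls NL th th' s).card ≤ q := by
  classical
  rcases (Ls NL th th' s).eq_empty_or_nonempty with he | hne
  · rw [he]; simp
  · have hmin := (Ls NL th th' s).min'_mem hne
    set l0 := (Ls NL th th' s).min' hne with hl0
    have h0 := (mem_Ls.1 hmin).2.2
    have hsub : Ls NL th th' s ⊆ Ico l0 (l0 + q) := by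
      intro l hl
      rw [mem_Ico]
      refine ⟨(Ls NL th th' s).min'_le l hl, ?_⟩
      by_contra hc
      have h2 := (mem_Ls.1 hl).2.1
      have h3 : (1 / 2 : ℝ) ^ l ≤ (1 / 2 : ℝ) ^ (l0 + q) :=
        pow_le_pow_of_le_one (by norm_num) (by norm_num) (by omega)
      rw [pow_add] at h3
      rw [pow_succ] at h0
      have h4 : (0 : ℝ) < (1 / 2) ^ q := by positivity
      have h5 : (1 / 2 : ℝ) ^ l0 * (1 / 2) ^ q ≤ 2 * (5 / 4 * th' s) * (1 / 2) ^ q :=
        mul_le_mul_of_nonneg_right (by linarith) h4.le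
      linarith
    have := card_le_card hsub
    rw [Nat.card_Ico] at this
    omega

/-- **(H3b) in union form from the single classes.** -/
theorem h3bU_of_cls (R : Mach S) {NL : ℕ → ℕ} {r : ℕ → ℕ → X → ℝ} {th th' : ℕ → ℝ}
    (H : RatOK S NL r th th') {C7 : ℝ} {L : ℕ → ℝ} {good : ℕ → ℕ → X → Prop}
    {Cl : ℕ → ℕ → ℕ → ℕ → X → ℝ} {Fail : ℕ → ℕ → ℕ → X → Prop} {o s a : ℕ} (h1 : 1 ≤ s)
    (h2 : s ≤ S.smax) (ha : a < S.na s) (hL : 0 ≤ L s) (hCl : ∀ l x, 0 ≤ Cl o s a l x)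
    (hcls : ∀ x, ¬ Fail o s a x → ∀ l < NL s, lamR r th th' s a x l → ∀ A : Finset ℕ,
      (∀ k ∈ A, k < S.nb s ∧ clsR R r o s a l x k) →
      ∑ k ∈ A, R.lhs C7 good o s a x k ≤
        2 * ∑ k ∈ A, ∑ i ∈ range (S.D s), S.G s a x (S.b0 o s k + i) +
        2 ^ s * L s * (∑ k ∈ (range (S.nb s)).filter (fun k => k ∉ A),
          ind (clsR R r o s a l x k) * R.m o s a x k) + Cl o s a l x) :
    H3bU R (actR R NL r th th') C7 L good
      (fun o s a x => ∑ l ∈ Ls NL th th' s, Cl o s a l x) Fail o s a := by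
  classical
  intro x hx A hA
  set Lx : Finset ℕ := (range (NL s)).filter (fun l => lamR r th th' s a x l) with hLx
  have hLx' : ∀ l ∈ Lx, l < NL s ∧ lamR r th th' s a x l := by
    intro l hl
    rw [hLx, mem_filter, mem_range] at hl
    exact hl
  have hsub : Lx ⊆ Ls NL th th' s := fun l hl =>
    lamR_mem_Ls H h1 h2 ha (hLx' l hl).1 (hLx' l hl).2
  -- every active block has exactly one class of the list
  have hone : ∀ (f : ℕ → ℝ) (k : ℕ), actR R NL r th th' o s a x k →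
      ∑ l ∈ Lx, ind (clsR R r o s a l x k) * f k = f k := by
    intro f k hk
    obtain ⟨l, hl, hlam, hc⟩ := hk.1 ha
    have hmem : l ∈ Lx := by rw [hLx, mem_filter, mem_range]; exact ⟨hl, hlam⟩
    rw [Finset.sum_eq_single l]
    · rw [ind_true hc, one_mul]
    · intro l' _ hne
      have : ¬ clsR R r o s a l' x k := fun hc' => hne (class_unique hc' hc)
      rw [ind_false this, zero_mul]
    · intro h; exact absurd hmem h
  have hsplit : ∀ f : ℕ → ℝ, ∑ k ∈ A, f k =
      ∑ l ∈ Lx, ∑ k ∈ A.filter (fun k => clsR R r o s a l x k), f k := by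
    intro f
    rw [Finset.sum_congr rfl fun k hk => (hone f k (hA k hk).2).symm, Finset.sum_comm]
    refine Finset.sum_congr rfl fun l _ => ?_
    rw [Finset.sum_filter]
    refine Finset.sum_congr rfl fun k _ => ?_
    by_cases hc : clsR R r o s a l x k
    · rw [if_pos hc, ind_true hc, one_mul]
    · rw [if_neg hc, ind_false hc, zero_mul]
  -- the charges
  have hch : ∑ l ∈ Lx, (∑ k ∈ (range (S.nb s)).filter
      (fun k => k ∉ A.filter (fun k => clsR R r o s a l x k)),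
        ind (clsR R r o s a l x k) * R.m o s a x k) ≤
      ∑ k ∈ (range (S.nb s)).filter (fun k => k ∉ A),
        ind (actR R NL r th th' o s a x k) * R.m o s a x k := by
    have e1 : ∀ l ∈ Lx, (∑ k ∈ (range (S.nb s)).filter
        (fun k => k ∉ A.filter (fun k => clsR R r o s a l x k)),
          ind (clsR R r o s a l x k) * R.m o s a x k) =
        ∑ k ∈ (range (S.nb s)).filter (fun k => k ∉ A),
          ind (clsR R r o s a l x k) * R.m o s a x k := by
      intro l _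
      rw [Finset.sum_filter, Finset.sum_filter]
      refine Finset.sum_congr rfl fun k _ => ?_
      by_cases hc : clsR R r o s a l x k
      · by_cases hk : k ∈ A
        · rw [if_neg (by rw [not_not]; exact mem_filter.2 ⟨hk, hc⟩), if_neg (not_not.2 hk)]
        · rw [if_pos (fun h => hk (mem_filter.1 h).1), if_pos hk]
      · rw [ind_false hc, zero_mul, ite_self, ite_self]
    rw [Finset.sum_congr rfl e1, Finset.sum_comm]
    refine Finset.sum_le_sum fun k _ => ?_
    have hm : 0 ≤ R.m o s a x k := sub_nonneg.2 (R.omAnti s a x (b0_le_b1 S o s k))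
    by_cases hact : actR R NL r th th' o s a x k
    · rw [hone (fun k => R.m o s a x k) k hact, ind_true hact, one_mul]
    · rw [ind_false hact, zero_mul]
      refine Finset.sum_nonpos fun l hl => ?_
      have : ¬ clsR R r o s a l x k := by
        intro hc
        exact hact ⟨fun _ => ⟨l, (hLx' l hl).1, (hLx' l hl).2, hc⟩, fun h => absurd ha h⟩
      rw [ind_false this, zero_mul]
  have hmain : ∀ l ∈ Lx, ∑ k ∈ A.filter (fun k => clsR R r o s a l x k),
      R.lhs C7 good o s a x k ≤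
        2 * ∑ k ∈ A.filter (fun k => clsR R r o s a l x k),
          ∑ i ∈ range (S.D s), S.G s a x (S.b0 o s k + i) +
        2 ^ s * L s * (∑ k ∈ (range (S.nb s)).filter
          (fun k => k ∉ A.filter (fun k => clsR R r o s a l x k)),
          ind (clsR R r o s a l x k) * R.m o s a x k) + Cl o s a l x := fun l hl =>
    hcls x hx l (hLx' l hl).1 (hLx' l hl).2 (A.filter (fun k => clsR R r o s a l x k))
      (fun k hk => ⟨(hA k (mem_filter.1 hk).1).1, (mem_filter.1 hk).2⟩)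
  calc ∑ k ∈ A, R.lhs C7 good o s a x k
      = ∑ l ∈ Lx, ∑ k ∈ A.filter (fun k => clsR R r o s a l x k), R.lhs C7 good o s a x k :=
        hsplit _
    _ ≤ ∑ l ∈ Lx, (2 * ∑ k ∈ A.filter (fun k => clsR R r o s a l x k),
          ∑ i ∈ range (S.D s), S.G s a x (S.b0 o s k + i) +
        2 ^ s * L s * (∑ k ∈ (range (S.nb s)).filter
          (fun k => k ∉ A.filter (fun k => clsR R r o s a l x k)),
          ind (clsR R r o s a l x k) * R.m o s a x k) + Cl o s a l x) := Finset.sum_le_sum hmain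
    _ = 2 * (∑ l ∈ Lx, ∑ k ∈ A.filter (fun k => clsR R r o s a l x k),
          ∑ i ∈ range (S.D s), S.G s a x (S.b0 o s k + i)) +
        2 ^ s * L s * (∑ l ∈ Lx, ∑ k ∈ (range (S.nb s)).filter
          (fun k => k ∉ A.filter (fun k => clsR R r o s a l x k)),
          ind (clsR R r o s a l x k) * R.m o s a x k) + ∑ l ∈ Lx, Cl o s a l x := by
        rw [Finset.sum_add_distrib, Finset.sum_add_distrib, Finset.mul_sum, Finset.mul_sum]
    _ ≤ _ := by
        rw [← hsplit (fun k => ∑ i ∈ range (S.D s), S.G s a x (S.b0 o s k + i))]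
        have e1 := mul_le_mul_of_nonneg_left hch (mul_nonneg (pow_nonneg zero_le_two s) hL)
        have e2 : ∑ l ∈ Lx, Cl o s a l x ≤ ∑ l ∈ Ls NL th th' s, Cl o s a l x :=
          Finset.sum_le_sum_of_subset_of_nonneg hsub fun l _ _ => hCl l x
        exact add_le_add (add_le_add le_rfl e1) e2

/-- The charges in terms of the masses. -/
theorem charge_le (R : Mach S) {NL : ℕ → ℕ} {r : ℕ → ℕ → X → ℝ} {th th' : ℕ → ℝ}
    (H : RatOK S NL r th th') {o s a l : ℕ} (h1 : 1 ≤ s) (h2 : s ≤ S.smax) (ha : a < S.na s)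
    {x : X} {F : Finset ℕ} (hF : ∀ k ∈ F, clsR R r o s a l x k) {Y B : ℝ} (hB : 0 ≤ B)
    (hY : Y ≤ B * (1 / 2 : ℝ) ^ l) : (F.card : ℝ) * Y ≤ 2 * B * ∑ k ∈ F, R.m o s a x k := by
  have hhi := H.hi s a x h1 h2 ha
  rw [← nsmul_eq_mul, ← Finset.sum_const, Finset.mul_sum]
  refine Finset.sum_le_sum fun k hk => ?_
  have h3 := (hF k hk).1
  have hm : 0 ≤ R.m o s a x k := sub_nonneg.2 (R.omAnti s a x (b0_le_b1 S o s k))
  have h4 : (1 / 2 : ℝ) ^ (l + 1) ≤ R.m o s a x k := h3.trans (by nlinarith)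
  rw [pow_succ] at h4
  calc Y ≤ B * (1 / 2 : ℝ) ^ l := hY
    _ ≤ B * (2 * R.m o s a x k) := mul_le_mul_of_nonneg_left (by linarith) hB
    _ = 2 * B * R.m o s a x k := by ring

end Vale.Agent.P315.H295
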