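import Vale.Agent.P315.Q.TabRN

/-!
P315, row G-STRAT (S1): the tables of `Q/Tab.lean` are small.

Every entry of every table is a list without repetitions of cells with both coordinates below the
clock `U t`; hence the tables up to the level `k ≤ U t` have size at most
`111 * (U t + 2) ^ 7 ≤ 1000 * (U t + 2) ^ 10`.
-/

set_option autoImplicit false

namespace Vale.Agent.P315.H295

open Vale.Agent.Lib.PolyTime Vale.Agent.P315.C Vale.Agent.P315.H155 Vale.Agent.P315.Q

/-! ### Generalities -/

theorem mem_rg {U x y : ℕ} : y ∈ rg U x ↔ y < min x U := by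
  unfold rg; rw [List.mem_range]

theorem lt_of_mem_rg {U x y : ℕ} (h : y ∈ rg U x) : y < U :=
  (mem_rg.1 h).trans_le (min_le_right _ _)

theorem length_rg_le (U x : ℕ) : (rg U x).length ≤ U := by
  unfold rg; rw [List.length_range]; exact min_le_right _ _

theorem getD_mem_or {α : Type*} (l : List α) (i : ℕ) (d : α) : l.getD i d ∈ l ∨ l.getD i d = d := by
  rcases Nat.lt_or_ge i l.length with h | h
  · left
    rw [List.getD_eq_getElem _ _ h]
    exact List.getElem_mem h
  · right
    exact List.getD_eq_default _ _ h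

/-- Cells below `u`. -/
def Below (u : ℕ) (e : Ev) : Prop := ∀ c ∈ e, c.1 < u ∧ c.2 < u

/-- Good entries: no repetitions, cells below `u`. -/
def Good (u : ℕ) (e : Ev) : Prop := e.Nodup ∧ Below u e

theorem good_nil (u : ℕ) : Good u [] := ⟨List.nodup_nil, by intro c hc; simp at hc⟩

theorem below_nil (u : ℕ) : Below u [] := by intro c hc; simp at hc

theorem Below.append {u : ℕ} {e e' : Ev} (h : Below u e) (h' : Below u e') : Below u (e ++ e') := by
  intro c hc
  rcases List.mem_append.1 hc with hc | hc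
  · exact h c hc
  · exact h' c hc

theorem below_flatMap {β : Type*} {u : ℕ} {l : List β} {f : β → Ev}
    (h : ∀ x ∈ l, Below u (f x)) : Below u (l.flatMap f) := by
  intro c hc
  obtain ⟨x, hx, hc⟩ := List.mem_flatMap.1 hc
  exact h x hx c hc

theorem good_nubL {u : ℕ} {e : Ev} (h : Below u e) : Good u (nubL e) := by
  rw [nubL_eq]
  exact ⟨H207.nodup_nub e, fun c hc => h c (H207.mem_nub.1 hc)⟩

theorem Good.length_le {u : ℕ} {e : Ev} (h : Good u e) : e.length ≤ u * u := by
  have h1 : e.toFinset ⊆ Finset.range u ×ˢ Finset.range u := by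
    intro c hc
    have := h.2 c (List.mem_toFinset.1 hc)
    rw [Finset.mem_product, Finset.mem_range, Finset.mem_range]
    exact this
  have h2 := Finset.card_le_card h1
  rw [List.toFinset_card_of_nodup h.1, Finset.card_product, Finset.card_range] at h2
  exact h2

theorem esize_cell_le {u : ℕ} {c : ℕ × ℕ} (h : c.1 < u ∧ c.2 < u) : esize c ≤ 3 * u + 1 := by
  rcases c with ⟨x, y⟩
  have h1 := esize_nat_le_self x
  have h2 := esize_nat_le_self y
  rw [Vale.Agent.Lib.PolyTime.esize_pair]
  have h3 : x < u := h.1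
  have h4 : y < u := h.2
  omega

theorem Good.esize_le {u : ℕ} {e : Ev} (h : Good u e) : esize e ≤ 7 * (u + 2) ^ 3 := by
  have h1 : esize e ≤ e.length * (2 * (3 * u + 1) + 1) :=
    esize_list_le fun c hc => esize_cell_le (h.2 c hc)
  have h2 := h.length_le
  calc esize e ≤ e.length * (2 * (3 * u + 1) + 1) := h1
    _ ≤ u * u * (2 * (3 * u + 1) + 1) := Nat.mul_le_mul_right _ h2
    _ ≤ 7 * (u + 2) ^ 3 := by nlinarith [Nat.zero_le u, Nat.zero_le (u * u), Nat.zero_le (u * u * u)]

/-- Good rows: at most `u` good entries. -/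
def GRow (u : ℕ) (r : List Ev) : Prop := r.length ≤ u ∧ ∀ e ∈ r, Good u e

/-- Good slabs. -/
def GSlab (u : ℕ) (s : List (List Ev)) : Prop := s.length ≤ u ∧ ∀ r ∈ s, GRow u r

/-- Good levels. -/
def GLev (u : ℕ) (l : List (List (List Ev))) : Prop := l.length ≤ u ∧ ∀ s ∈ l, GSlab u s

theorem GRow.esize_le {u : ℕ} {r : List Ev} (h : GRow u r) : esize r ≤ 15 * (u + 2) ^ 4 := by
  have h1 : esize r ≤ r.length * (2 * (7 * (u + 2) ^ 3) + 1) :=
    esize_list_le fun e he => (h.2 e he).esize_le
  have h2 : 1 ≤ (u + 2) ^ 3 := Nat.one_le_pow _ _ (by omega)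
  calc esize r ≤ r.length * (2 * (7 * (u + 2) ^ 3) + 1) := h1
    _ ≤ (u + 2) * (15 * (u + 2) ^ 3) := Nat.mul_le_mul (h.1.trans (by omega)) (by omega)
    _ = 15 * (u + 2) ^ 4 := by ring

theorem GSlab.esize_le {u : ℕ} {s : List (List Ev)} (h : GSlab u s) : esize s ≤ 31 * (u + 2) ^ 5 := by
  have h1 : esize s ≤ s.length * (2 * (15 * (u + 2) ^ 4) + 1) :=
    esize_list_le fun r hr => (h.2 r hr).esize_le
  have h2 : 1 ≤ (u + 2) ^ 4 := Nat.one_le_pow _ _ (by omega)
  calc esize s ≤ s.length * (2 * (15 * (u + 2) ^ 4) + 1) := h1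
    _ ≤ (u + 2) * (31 * (u + 2) ^ 4) := Nat.mul_le_mul (h.1.trans (by omega)) (by omega)
    _ = 31 * (u + 2) ^ 5 := by ring

theorem GLev.esize_le {u : ℕ} {l : List (List (List Ev))} (h : GLev u l) :
    esize l ≤ 63 * (u + 2) ^ 6 := by
  have h1 : esize l ≤ l.length * (2 * (31 * (u + 2) ^ 5) + 1) :=
    esize_list_le fun s hs => (h.2 s hs).esize_le
  have h2 : 1 ≤ (u + 2) ^ 5 := Nat.one_le_pow _ _ (by omega)
  calc esize l ≤ l.length * (2 * (31 * (u + 2) ^ 5) + 1) := h1
    _ ≤ (u + 2) * (63 * (u + 2) ^ 5) := Nat.mul_le_mul (h.1.trans (by omega)) (by omega)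
    _ = 63 * (u + 2) ^ 6 := by ring

/-- Good tables. -/
def GT (u : ℕ) (tabs : Tabs) : Prop := ∀ l ∈ tabs, GLev u l

theorem GT.append {u : ℕ} {tabs : Tabs} {x : List (List (List Ev))} (h : GT u tabs)
    (hx : GLev u x) : GT u (tabs ++ [x]) := by
  intro l hl
  rcases List.mem_append.1 hl with hl | hl
  · exact h l hl
  · rw [List.mem_singleton] at hl
    rw [hl]; exact hx

theorem GT.esize_le {u : ℕ} {tabs : Tabs} (h : GT u tabs) (hk : tabs.length ≤ u + 1) :
    esize tabs ≤ 127 * (u + 2) ^ 7 := by
  have h1 : esize tabs ≤ tabs.length * (2 * (63 * (u + 2) ^ 6) + 1) :=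
    esize_list_le fun l hl => (h l hl).esize_le
  have h2 : 1 ≤ (u + 2) ^ 6 := Nat.one_le_pow _ _ (by omega)
  calc esize tabs ≤ tabs.length * (2 * (63 * (u + 2) ^ 6) + 1) := h1
    _ ≤ (u + 2) * (127 * (u + 2) ^ 6) := Nat.mul_le_mul (hk.trans (by omega)) (by omega)
    _ = 127 * (u + 2) ^ 7 := by ring

/-- All look-ups in good tables are good. -/
theorem GT.lk {u : ℕ} {tabs : Tabs} (h : GT u tabs) (j i a b : ℕ) : Good u (lk tabs j i a b) := by
  unfold Q.lk
  have h1 : GLev u (tabs.getD j []) := by
    rcases getD_mem_or tabs j [] with h1 | h1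
    · exact h _ h1
    · rw [h1]; exact ⟨by simp, by intro s hs; simp at hs⟩
  have h2 : GSlab u ((tabs.getD j []).getD i []) := by
    rcases getD_mem_or (tabs.getD j []) i [] with h2 | h2
    · exact h1.2 _ h2
    · rw [h2]; exact ⟨by simp, by intro s hs; simp at hs⟩
  have h3 : GRow u (((tabs.getD j []).getD i []).getD a []) := by
    rcases getD_mem_or ((tabs.getD j []).getD i []) a [] with h3 | h3
    · exact h2.2 _ h3
    · rw [h3]; exact ⟨by simp, by intro s hs; simp at hs⟩
  rcases getD_mem_or (((tabs.getD j []).getD i []).getD a []) b [] with h4 | h4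
  · exact h3.2 _ h4
  · rw [h4]; exact good_nil u

/-! ### The tables of a strategy -/

section

variable {θ : Type} [Enc θ] (St : TStrat θ) (t : θ) (T : KT)

theorem good_uent {tabs : Tabs} (h : GT (St.U t) tabs) (j i a s k0 m x : ℕ) :
    Good (St.U t) (St.uent t tabs j i a s k0 m x) := h.lk _ _ _ _

theorem below_base {tabs : Tabs} (h : GT (St.U t) tabs) (j i a b : ℕ) :
    Below (St.U t) (St.base t tabs j i a b) :=
  below_flatMap fun _ _ => below_flatMap fun _ _ => (h.lk _ _ _ _).2

theorem below_seen {tabs : Tabs} (h : GT (St.U t) tabs) (j i a b : ℕ) :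
    Below (St.U t) (St.seen t tabs j i a b) :=
  below_flatMap fun _ _ => below_flatMap fun _ _ => below_flatMap fun _ _ =>
    below_flatMap fun _ _ => (good_uent St t h _ _ _ _ _ _ _).2

theorem below_lns {tabs : Tabs} (h : GT (St.U t) tabs) (j i a b : ℕ) :
    Below (St.U t) (St.lns t T tabs j i a b) :=
  below_flatMap fun _ _ => below_flatMap fun _ _ => below_flatMap fun _ _ =>
    below_flatMap fun _ _ => (good_uent St t h _ _ _ _ _ _ _).2

theorem good_entry {tabs : Tabs} (h : GT (St.U t) tabs) (j i a b : ℕ) :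
    Good (St.U t) (St.entry t T tabs j i a b) :=
  good_nubL ((below_base St t h j i a b).append
    ((below_seen St t h j i a b).append (below_lns St t T h j i a b)))

theorem good_entry0 {i a : ℕ} (b : ℕ) (hi : i < St.U t) (ha : a < St.U t) :
    Good (St.U t) (St.entry0 t i a b) := by
  unfold TStrat.entry0
  split_ifs
  · exact good_nil _
  · refine ⟨List.nodup_singleton _, ?_⟩
    intro c hc
    rw [List.mem_singleton] at hc
    rw [hc]; exact ⟨hi, ha⟩

theorem gl_levelTab {tabs : Tabs} (h : GT (St.U t) tabs) (j : ℕ) :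
    GLev (St.U t) (St.levelTab t T tabs j) := by
  unfold TStrat.levelTab
  refine ⟨by rw [List.length_map]; exact length_rg_le _ _, fun s hs => ?_⟩
  obtain ⟨i, _, rfl⟩ := List.mem_map.1 hs
  refine ⟨by rw [List.length_map]; exact length_rg_le _ _, fun r hr => ?_⟩
  obtain ⟨a, _, rfl⟩ := List.mem_map.1 hr
  refine ⟨by rw [List.length_map]; exact length_rg_le _ _, fun e he => ?_⟩
  obtain ⟨b, _, rfl⟩ := List.mem_map.1 he
  exact good_entry St t T h j i a b

theorem gl_level0 : GLev (St.U t) (St.level0 t) := by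
  unfold TStrat.level0
  refine ⟨by rw [List.length_map]; exact length_rg_le _ _, fun s hs => ?_⟩
  obtain ⟨i, hi, rfl⟩ := List.mem_map.1 hs
  refine ⟨by rw [List.length_map]; exact length_rg_le _ _, fun r hr => ?_⟩
  obtain ⟨a, ha, rfl⟩ := List.mem_map.1 hr
  refine ⟨by rw [List.length_map]; exact length_rg_le _ _, fun e he => ?_⟩
  obtain ⟨b, _, rfl⟩ := List.mem_map.1 he
  exact good_entry0 St t b (lt_of_mem_rg hi) (lt_of_mem_rg ha)

theorem gt_tabsU (k : ℕ) : GT (St.U t) (St.tabsU t T k) := by
  induction k with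
  | zero =>
    intro l hl
    have : l = St.level0 t := List.mem_singleton.1 hl
    rw [this]; exact gl_level0 St t
  | succ k ih => exact ih.append (gl_levelTab St t T ih (k + 1))

/-- All entries of the tables are without repetitions, with cells below the clock. -/
theorem good_lk_tabsU (k j i a b : ℕ) : Good (St.U t) (lk (St.tabsU t T k) j i a b) :=
  (gt_tabsU St t T k).lk j i a b

/-- **(S1)** The tables are small. -/
theorem esize_tabsU_le {k : ℕ} (hk : k ≤ St.U t) :
    esize (St.tabsU t T k) ≤ 127 * (St.U t + 2) ^ 7 :=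
  (gt_tabsU St t T k).esize_le (by rw [TStrat.length_tabsU]; omega)

theorem esize_tabsU_le' {k : ℕ} (hk : k ≤ St.U t) :
    esize (St.tabsU t T k) ≤ 1000 * (St.U t + 2) ^ 10 := by
  refine (esize_tabsU_le St t T hk).trans (Nat.mul_le_mul (by norm_num) ?_)
  exact Nat.pow_le_pow_right (by omega) (by norm_num)

/-- The tables are without size budget. -/
theorem tables_eq_tabsU (hn : St.n t ≤ St.U t) (hB : 127 * (St.U t + 2) ^ 7 ≤ St.BB t) :
    St.tables t T = St.tabsU t T (St.n t) :=
  TStrat.tables_eq T fun _ hj => (esize_tabsU_le St t T (hj.trans hn)).trans hB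

/-- The tables with size budget are good, whatever the budget is. -/
theorem gt_tables : GT (St.U t) (St.tables t T) := by
  unfold TStrat.tables
  have h : ∀ k, GT (St.U t) (natRecC (St.BB t) k
      (fun j tabs => tabs ++ [St.levelTab t T tabs (j + 1)]) [St.level0 t]) := by
    intro k
    induction k with
    | zero =>
      intro l hl
      have : l = St.level0 t := List.mem_singleton.1 hl
      rw [this]; exact gl_level0 St t
    | succ k ih =>
      rw [natRecC_succ]
      split_ifs
      · exact ih.append (gl_levelTab St t T ih (k + 1))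
      · exact ih
  exact h _

theorem good_root : Good (St.U t) (St.root t T) := (gt_tables St t T).lk _ _ _ _

theorem nodup_root : (St.root t T).Nodup := (good_root St t T).1

theorem root_lt {c : ℕ × ℕ} (hc : c ∈ St.root t T) : c.1 < St.U t ∧ c.2 < St.U t :=
  (good_root St t T).2 c hc

theorem length_root_le : (St.root t T).length ≤ St.U t * St.U t := (good_root St t T).length_le

theorem esize_root_le : esize (St.root t T) ≤ 7 * (St.U t + 2) ^ 3 := (good_root St t T).esize_le

/-- The next query is small. -/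
theorem next_le : St.next t T ≤ St.U t * St.Dc t + St.U t + 1 := by
  unfold TStrat.next miss
  rcases h : (St.root t T).find? (fun c => !(knB T c)) with _ | c
  · simp
  · have hc := List.mem_of_find?_eq_some h
    have := root_lt St t T hc
    simp only [Option.elim_some]
    have h1 : c.1 * St.Dc t ≤ St.U t * St.Dc t := Nat.mul_le_mul_right _ this.1.le
    omega

end

/-- **(S1)** with `Link`: the root of the tables is the causal list of the root, if the size
budget is at least `127 * (U t + 2) ^ 7`. -/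
theorem root_eq {θ : Type} [Enc θ] {St : TStrat θ} {t : θ} {S : H207.Strat (List ℕ)}
    {V : ℕ → ℕ → Prop} {pos : ℕ → Prop} (hL : Link St t S V pos) (T : KT)
    (hB : 127 * (St.U t + 2) ^ 7 ≤ St.BB t) (hV : V (St.n t) (St.a0 t)) :
    St.root t T = S.RN (look T) (St.n t) 0 (St.a0 t) (St.Nr t) :=
  TStrat.root_eq hL T (fun _ hj => (esize_tabsU_le St t T (hj.trans hL.un)).trans hB) hV

end Vale.Agent.P315.H295
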