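import Vale.Agent.P315.H295.Cls
import Vale.Agent.P315.H508.Plug

/-!
P315: from the machine inequality of the single classes (conclusion of `region_h3b`,
`region_h3bW` in static indices) to the union form, with closed numbers for the error terms, and
the sum of the error terms over scales and classes. Serves both theorems.
-/

set_option autoImplicit false

open Finset Filter
open scoped Classical

namespace Vale.Agent.P315.H295

open Vale.Agent.P315.Acc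

/-- Error terms of one class, closed form. -/
noncomputable def CapN (C8 Cph Cr : ℝ) (m s l : ℕ) : ℝ :=
  H508.capR (C8 * (1 / 2) ^ l) (Cph * m * 2 ^ s) (16 ^ s * (m : ℝ) ^ 2)
    (Cr * (Par.thm m s * (1 / 2) ^ l)) s l

theorem CapN_nonneg {C8 Cph Cr : ℝ} (h8 : 0 ≤ C8) (hph : 0 ≤ Cph) (hr : 0 ≤ Cr) (m s l : ℕ) :
    0 ≤ CapN C8 Cph Cr m s l := by
  have := (Par.thm_pos m s).le
  unfold CapN H508.capR
  positivity

/-- **The sum of the error terms.** -/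
theorem capN_sum (e0 C8 Cph Cr : ℝ) (q : ℕ) {ε : ℝ} (he0 : 0 < e0) (hε : 0 < ε) (h8 : 0 ≤ C8)
    (hph : 0 ≤ Cph) (hr : 0 ≤ Cr) : ∀ᶠ m : ℕ in atTop, ∀ (NL : ℕ → ℕ),
      (∀ s, NL s ≤ m * 2 ^ s + q) → ∀ {X : Type} [Fintype X] [Nonempty X] (S : Sys X),
      ∑ s ∈ Icc 1 S.smax, S.avO (fun _ => TA S s (fun _ _ =>
        ∑ l ∈ Ls NL (Par.thm m) (Par.thpm e0 m) s, CapN C8 Cph Cr m s l)) ≤ ε * S.n := by
  filter_upwards [H508.capR_sum e0 C8 Cph 1 Cr (5 / 2) 1 q he0 hε h8 hph zero_le_one hr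
    (by norm_num) zero_le_one] with m hm NL hNL X _ _ S
  refine H508.caps_plug S (F := fun _ s _ _ => ∑ l ∈ Ls NL (Par.thm m) (Par.thpm e0 m) s,
    CapN C8 Cph Cr m s l) (c := fun s => ∑ l ∈ Ls NL (Par.thm m) (Par.thpm e0 m) s,
    CapN C8 Cph Cr m s l) (fun s _ => sum_nonneg fun l _ => CapN_nonneg h8 hph hr m s l)
    (fun _ _ _ _ _ _ _ => le_rfl) ?_
  simp_rw [Finset.sum_div]
  refine hm (Icc 1 S.smax) (fun s => Ls NL (Par.thm m) (Par.thpm e0 m) s)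
    (fun _ l => C8 * (1 / 2) ^ l) (fun s l => Cr * (Par.thm m s * (1 / 2) ^ l))
    (fun s => Cph * m * 2 ^ s) (fun s => 16 ^ s * (m : ℝ) ^ 2)
    (fun s hs => (mem_Icc.1 hs).1) ?_ ?_ ?_ ?_ ?_
  · intro s _ l hl
    have h := mem_Ls.1 hl
    refine ⟨?_, by have := hNL s; omega⟩
    have h2 := h.2.2
    rw [pow_succ] at h2
    have h3 : H508.thp e0 m s = Par.thpm e0 m s := rfl
    rw [h3, one_pow, mul_one]
    linarith
  · intro s _ l _
    exact ⟨by positivity, le_rfl⟩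
  · intro s _
    exact ⟨by positivity, le_rfl⟩
  · intro s _
    exact ⟨by positivity, by rw [one_mul]⟩
  · intro s _ l _
    exact le_rfl

variable {X : Type} [Fintype X] [Nonempty X] {S : Sys X}

theorem m_nonneg' (R : Mach S) (o s a : ℕ) (x : X) (k : ℕ) : 0 ≤ R.m o s a x k :=
  sub_nonneg.2 (R.omAnti s a x (b0_le_b1 S o s k))

/-- The drops of the machine value sum up to at most `1 + 2 tau`. -/
theorem sum_m_le (R : Mach S) {s a : ℕ} (hs : s ≤ S.smax) (ha : a < S.na s) (o : ℕ) (x : X)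
    (N : ℕ) : ∑ k ∈ range N, R.m o s a x k ≤ 1 + 2 * R.tau s := by
  have h1 : ∀ N, ∑ k ∈ range N, R.m o s a x k =
      R.om s a x (S.b0 o s 0) - R.om s a x (S.b0 o s N) := by
    intro N
    induction N with
    | zero => simp
    | succ N ih =>
      rw [Finset.sum_range_succ, ih]
      have : S.b0 o s (N + 1) = S.b1 o s N := rfl
      rw [this]; unfold Mach.m; ring
  rw [h1]
  have h2 : S.V s a x (S.b0 o s 0) ≤ 1 := by
    have := av_mono S (j := (a + 1) * 2 ^ s) (f := fun y => S.e (a * 2 ^ s) y (S.b0 o s 0))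
      (g := fun _ => 1) (fun y => S.le_one _ y _) x
    rw [av_self S (f := fun _ => (1 : ℝ)) (fun _ _ _ => rfl)] at this
    exact this
  have h3 := R.om_le s a x (S.b0 o s 0) hs ha
  have h4 := R.le_om s a x (S.b0 o s N) hs ha
  have h5 := S.nonneg ((a + 1) * 2 ^ s) x (S.b0 o s N)
  linarith

/-- Number of the blocks of a class. -/
theorem card_clsR_le (R : Mach S) {NL : ℕ → ℕ} {r : ℕ → ℕ → X → ℝ} {th th' : ℕ → ℝ}
    (H : RatOK S NL r th th') {o s a l : ℕ} (h1 : 1 ≤ s) (h2 : s ≤ S.smax) (ha : a < S.na s)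
    (ht : R.tau s ≤ 1 / 2) {x : X} {A : Finset ℕ}
    (hA : ∀ k ∈ A, k < S.nb s ∧ clsR R r o s a l x k) : (A.card : ℝ) ≤ 2 ^ (l + 2) := by
  have hsub : A ⊆ range (S.nb s) := fun k hk => mem_range.2 (hA k hk).1
  have e1 : ∑ k ∈ A, R.m o s a x k ≤ 1 + 2 * R.tau s :=
    (sum_le_sum_of_subset_of_nonneg hsub fun k _ _ => m_nonneg' R o s a x k).trans
      (sum_m_le R h2 ha o x (S.nb s))
  have e2 := charge_le R H h1 h2 ha (F := A) (fun k hk => (hA k hk).2) (Y := (1 / 2 : ℝ) ^ l)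
    (B := 1) zero_le_one (by rw [one_mul])
  have e3 : (A.card : ℝ) * (1 / 2) ^ l ≤ 4 := by linarith
  have e4 : (2 : ℝ) ^ (l + 2) * (1 / 2) ^ l = 4 := by
    rw [pow_add, mul_right_comm, ← mul_pow]; norm_num
  have hp : (0 : ℝ) < (1 / 2) ^ l := by positivity
  rw [← e4] at e3
  exact le_of_mul_le_mul_right e3 hp

/-- **Union form with closed numbers** from the machine inequalities of the single classes. -/
theorem h3bU_num (R : Mach S) {NL : ℕ → ℕ} {r : ℕ → ℕ → X → ℝ} {m : ℕ} {th' : ℕ → ℝ}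
    (H : RatOK S NL r (Par.thm m) th') {C7 C8 Cph Cr : ℝ} (h8 : 0 ≤ C8) (hph : 0 ≤ Cph)
    (hr : 0 ≤ Cr) {good : ℕ → ℕ → X → Prop} {Fail : ℕ → ℕ → ℕ → X → Prop} {o s a : ℕ}
    (h1 : 1 ≤ s) (h2 : s ≤ S.smax) (ha : a < S.na s) (ht : R.tau s ≤ 1 / 2)
    {Q err : ℕ → X → ℝ}
    (hQ : ∀ x, ¬ Fail o s a x → ∀ l < NL s, lamR r (Par.thm m) th' s a x l →
      Q l x ≤ 2 ^ s * (C8 * (1 / 2) ^ l * (Cph * m * 2 ^ s)))
    (herr : ∀ x, ¬ Fail o s a x → ∀ l < NL s, lamR r (Par.thm m) th' s a x l →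
      err l x ≤ 16 ^ s * (m : ℝ) ^ 2 * (Cr * (Par.thm m s * (1 / 2) ^ l)))
    (hcls : ∀ x, ¬ Fail o s a x → ∀ l < NL s, lamR r (Par.thm m) th' s a x l →
      ∀ A : Finset ℕ, (∀ k ∈ A, k < S.nb s ∧ clsR R r o s a l x k) →
      ∑ k ∈ A, R.lhs C7 good o s a x k ≤
        2 * ∑ k ∈ A, ∑ i ∈ range (S.D s), S.G s a x (S.b0 o s k + i)
        + (1 + (((range (S.nb s)).filter fun k => k ∉ A ∧ clsR R r o s a l x k).card : ℝ)) *
          Q l x + (A.card : ℝ) * err l x) :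
    H3bU R (actR R NL r (Par.thm m) th') C7 (fun s => 2 * C8 * Cph * m * 2 ^ s) good
      (fun _ s _ _ => ∑ l ∈ Ls NL (Par.thm m) th' s, CapN C8 Cph Cr m s l) Fail o s a := by
  have hm0 : (0 : ℝ) ≤ m := Nat.cast_nonneg m
  have hth := (Par.thm_pos m s).le
  refine h3bU_of_cls R H h1 h2 ha (L := fun s => 2 * C8 * Cph * m * 2 ^ s)
    (Cl := fun _ s _ l _ => CapN C8 Cph Cr m s l) (by positivity)
    (fun l _ => CapN_nonneg h8 hph hr m s l) ?_
  intro x hx l hl hlam A hA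
  have e1 := hcls x hx l hl hlam A hA
  have e2 := hQ x hx l hl hlam
  have e3 := herr x hx l hl hlam
  have e4 := card_clsR_le R H h1 h2 ha ht hA
  set F := (range (S.nb s)).filter fun k => k ∉ A ∧ clsR R r o s a l x k with hF
  have hFc : ∀ k ∈ F, clsR R r o s a l x k := fun k hk => (mem_filter.1 hk).2.2
  set B : ℝ := 2 ^ s * (C8 * (Cph * m * 2 ^ s)) with hB
  have hB0 : 0 ≤ B := by rw [hB]; positivity
  have e5 : (F.card : ℝ) * (2 ^ s * (C8 * (1 / 2) ^ l * (Cph * m * 2 ^ s))) ≤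
      2 * B * ∑ k ∈ F, R.m o s a x k :=
    charge_le R H h1 h2 ha hFc hB0 (by rw [hB]; exact le_of_eq (by ring))
  have e6 : ∑ k ∈ F, R.m o s a x k = ∑ k ∈ (range (S.nb s)).filter (fun k => k ∉ A),
      ind (clsR R r o s a l x k) * R.m o s a x k := by
    rw [hF, sum_filter, sum_filter]
    refine sum_congr rfl fun k _ => ?_
    by_cases hk : k ∈ A
    · rw [if_neg (fun h => h.1 hk), if_neg (not_not.2 hk)]
    · by_cases hc : clsR R r o s a l x k
      · rw [if_pos ⟨hk, hc⟩, if_pos hk, ind_true hc, one_mul]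
      · rw [if_neg (fun h => hc h.2), if_pos hk, ind_false hc, zero_mul]
  rw [e6] at e5
  have e7 : (1 + (F.card : ℝ)) * Q l x ≤
      (1 + (F.card : ℝ)) * (2 ^ s * (C8 * (1 / 2) ^ l * (Cph * m * 2 ^ s))) :=
    mul_le_mul_of_nonneg_left e2 (by positivity)
  have e8 : (A.card : ℝ) * err l x ≤
      2 ^ (l + 2) * (16 ^ s * (m : ℝ) ^ 2 * (Cr * (Par.thm m s * (1 / 2) ^ l))) := by
    refine (mul_le_mul_of_nonneg_left e3 (Nat.cast_nonneg _)).trans ?_
    exact mul_le_mul_of_nonneg_right e4 (by positivity)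
  have e9 : CapN C8 Cph Cr m s l = 2 ^ s * (C8 * (1 / 2) ^ l * (Cph * m * 2 ^ s)) +
      2 ^ (l + 2) * (16 ^ s * (m : ℝ) ^ 2 * (Cr * (Par.thm m s * (1 / 2) ^ l))) := rfl
  rw [e9]
  have e10 : 2 * B = 2 ^ s * (2 * C8 * Cph * m * 2 ^ s) := by rw [hB]; ring
  rw [e10] at e5
  linarith

/-- The error of one round of the weighted machine. -/
theorem er_leW {th th' : ℕ → ℝ} {NL : ℕ → ℕ} {s l m : ℕ} (hth : th s = Par.thm m s)
    (hl : l ∈ Ls NL th th' s) {ε rt rb d cw em C8 C Ce : ℝ} (hC : 0 ≤ C) (hC8 : 0 ≤ C8)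
    (hCe : 0 ≤ Ce)
    (hε : ε ≤ C * Par.dlm m s) (hrt : rt ≤ C * Par.dlm m s) (hrb : rb ≤ C * Par.dlm m s)
    (hd : d ≤ C * Par.dlm m s) (hcw0 : 0 ≤ cw) (hcw : cw ≤ C8 * (1 / 2) ^ l)
    (hem : em ≤ Ce * Par.thm m s) :
    2 * ε + 2 * rt + 2 * rb + 2 * d + cw * em ≤
      (86 * C + C8 * Ce) * (Par.thm m s * (1 / 2) ^ l) := by
  have ht := Par.thm_pos m s
  have hp : (0 : ℝ) < (1 / 2) ^ l := by positivity
  have h1 := (mem_Ls.1 hl).2.1
  rw [hth] at h1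
  have hdl : Par.dlm m s = Par.thm m s * Par.thm m s := by
    unfold Par.dlm Par.thm
    rw [← pow_add]
    congr 1
    ring
  have h2 : Par.dlm m s ≤ 32 / 3 * (Par.thm m s * (1 / 2) ^ l) := by
    rw [hdl]; nlinarith
  have h3 : C * Par.dlm m s ≤ C * (32 / 3 * (Par.thm m s * (1 / 2) ^ l)) :=
    mul_le_mul_of_nonneg_left h2 hC
  have h4 : cw * em ≤ C8 * (1 / 2) ^ l * (Ce * Par.thm m s) :=
    (mul_le_mul_of_nonneg_left hem hcw0).trans
      (mul_le_mul_of_nonneg_right hcw (by positivity))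
  have h5 : 0 ≤ C * (Par.thm m s * (1 / 2) ^ l) := by positivity
  nlinarith

end Vale.Agent.P315.H295
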