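import Vale.Agent.P315.H295.Step11b
import Vale.Agent.P315.H241.Edge
import Vale.Agent.P315.H587.Cap

/-! P315, Part A: THE ACCOUNTING INEQUALITY for one system and one offset, and its average over
the offsets.  helper295, over the steps of helper241 and helper587. -/

set_option autoImplicit false

open Finset

namespace Vale.Agent.P315.H295

open Vale.Agent.P315.Acc

variable {X : Type} [Fintype X] [Nonempty X]

/-- Mass in the blocks of scale `0` in which the children have average mass at least `t`. -/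
noncomputable def He (S : Sys X) (t : ℝ) (o : ℕ) : ℝ :=
  TT S 0 (fun a x k => ind (t ≤ S.rho o 0 a x k) * S.rho o 0 a x k)

/-- **STEP 1**, deterministic half. -/
theorem T0_le (S : Sys X) (th : ℕ → ℝ) (o : ℕ) :
    H241.T0 S th o ≤ He S (th 0 / 2) o + H241.GB1 S o 0 := by
  have hna : S.na 0 = S.n := by unfold Sys.na; simp
  have e1 : H241.GB1 S o 0 = TT S 0 (fun a x k => S.G 0 a x (S.b1 o 0 k)) := rfl
  rw [e1]
  unfold He
  rw [← TT_add]
  unfold H241.T0 H241.Mf TT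
  rw [hna]
  refine Finset.sum_le_sum fun j hj => ?_
  have hj' := Finset.mem_range.1 hj
  rw [E_sum, E_sum]
  refine Finset.sum_le_sum fun k _ => ?_
  have hlev : (j + 1) * 2 ^ 0 = j + 1 := by simp
  have hm : Meas S (j + 1) (fun x => ind (th 0 ≤ S.nuT o 0 j x k)) := by
    intro x y hxy
    have : S.nuT o 0 j x k = S.nuT o 0 j y k := by
      unfold Sys.nuT Sys.nu
      rw [hlev, S.meas _ _ _ hxy]
    simp only [this]
  have h1 : S.E (fun x => S.nu j x (S.b0 o 0 k) (S.b1 o 0 k) * ind (th 0 ≤ S.nuT o 0 j x k)) =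
      S.E (fun x => ind (th 0 ≤ S.nuT o 0 j x k) * S.rho o 0 j x k) := by
    have h2 := E_pull S (f := fun y => S.nuU o 0 j y k) hm
    have h3 : ∀ x, S.av (j + 1) (fun y => S.nuU o 0 j y k) x = S.rho o 0 j x k := by
      intro x; rw [rho_eq_av, hlev]
    simp only [h3] at h2
    rw [h2]
    congr 1
    funext x
    unfold Sys.nuU
    simp only [pow_zero, mul_one]
    ring
  rw [h1]
  refine E_mono S fun x => ?_
  have ha : j < S.na 0 := by rw [hna]; exact hj'
  have hG0 := G_nonneg S ha x (S.b0 o 0 k)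
  have hG1 := G_nonneg S ha x (S.b1 o 0 k)
  have hr := rho_nonneg S o 0 j x k
  have hre := rho_eq S o 0 j x k
  show ind (th 0 ≤ S.nuT o 0 j x k) * S.rho o 0 j x k ≤
    ind (th 0 / 2 ≤ S.rho o 0 j x k) * S.rho o 0 j x k + S.G 0 j x (S.b1 o 0 k)
  by_cases hA : th 0 ≤ S.nuT o 0 j x k
  · rw [ind_true hA, one_mul]
    by_cases hB : th 0 / 2 ≤ S.rho o 0 j x k
    · rw [ind_true hB, one_mul]; linarith
    · rw [ind_false hB, zero_mul, zero_add]
      push Not at hB
      linarith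
  · rw [ind_false hA, zero_mul]
    have := mul_nonneg (ind_nonneg (th 0 / 2 ≤ S.rho o 0 j x k)) hr
    linarith

section

variable {S : Sys X} {R : Mach S} (P : Thr S R)

/-- the capped units, at one leaf -/
theorem cap_term (C7 : ℝ) (o s : ℕ) :
    TT S s (fun a x k => ind (AA P o s a x k) * S.av ((a + 1) * 2 ^ s)
      (fun y => S.nuU o s a y k * ind (¬ S.nuU o s a y k ≤ C7 * R.m o s a x k)) x) =
    ∑ a ∈ range (S.na s), S.E (fun x => ∑ k ∈ range (S.nb s), ind (AA P o s a x k) *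
        (S.nuU o s a x k * ind (¬ S.nuU o s a x k ≤ C7 * R.m o s a x k))) := by
  unfold TT
  refine Finset.sum_congr rfl fun a _ => ?_
  rw [E_sum, E_sum]
  refine Finset.sum_congr rfl fun k _ => ?_
  have hm : Meas S ((a + 1) * 2 ^ s) (fun x => ind (AA P o s a x k)) :=
    fun x y hxy => ind_congr (AA_meas hxy)
  rw [← E_pull S (f := fun x => S.nuU o s a x k *
    ind (¬ S.nuU o s a x k ≤ C7 * R.m o s a x k)) hm]
  congr 1
  funext x
  have hmx : ∀ y, S.q ((a + 1) * 2 ^ s) y = S.q ((a + 1) * 2 ^ s) x →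
      R.m o s a x k = R.m o s a y k := by
    intro y hy
    unfold Mach.m; rw [R.omMeas s a y x hy]
  have hav : S.av ((a + 1) * 2 ^ s)
      (fun y => S.nuU o s a y k * ind (¬ S.nuU o s a y k ≤ C7 * R.m o s a x k)) x =
      S.av ((a + 1) * 2 ^ s)
      (fun y => S.nuU o s a y k * ind (¬ S.nuU o s a y k ≤ C7 * R.m o s a y k)) x := by
    refine le_antisymm (avg_mono S.hw x fun y hy => ?_) (avg_mono S.hw x fun y hy => ?_)
    · rw [hmx y hy]
    · rw [hmx y hy]
  beta_reduce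
  rw [hav]

theorem Us_term (hc : ∀ t, 0 ≤ P.c t) (o s : ℕ)
    (hy : ∀ t, s + 2 ≤ t → t ≤ S.smax → 80 * P.c t ≤ 3 * P.th s) :
    TT S s (fun a x k => Uw P o s a x k) ≤
      ∑ t ∈ Icc (s + 2) S.smax, 2 ^ (t - s + 1) * (1 + H241.GB1 S o t) := by
  have h := S.Us_le (y := 3 / 10 * P.th s) (c := fun t => 4 * P.c t)
    (fun t => mul_nonneg (by norm_num) (hc t)) o s
    (fun t h1 h2 => by have := hy t h1 h2; linarith)
  refine le_trans (le_of_eq ?_) h
  unfold TT
  refine Finset.sum_congr rfl fun a _ => ?_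
  congr 1
  funext x
  refine Finset.sum_congr rfl fun k _ => ?_
  unfold Uw
  beta_reduce
  congr 1
  refine ind_congr (and_congr_right fun _ => ?_)
  constructor
  · rintro ⟨t, ht, h1⟩
    exact ⟨t, (mem_Icc.1 ht).1, (mem_Icc.1 ht).2, h1⟩
  · rintro ⟨t, h1, h2, h3⟩
    exact ⟨t, mem_Icc.2 ⟨h1, h2⟩, h3⟩

/-- **THE ACCOUNTING INEQUALITY**, one system, one fixed offset of the grid. -/
theorem final_fixed {C7 : ℝ} (hC7 : 8 ≤ C7) {L : ℕ → ℝ} {good : ℕ → ℕ → X → Prop}
    {Cap : ℕ → ℕ → ℕ → X → ℝ} {Fail : ℕ → ℕ → ℕ → X → Prop} {o : ℕ}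
    (hL : ∀ s, 0 ≤ L s) (hCap : ∀ s a x, 0 ≤ Cap o s a x)
    (hc : ∀ t, 0 ≤ P.c t) (hth' : ∀ s, 0 < P.th' s)
    (hP1 : ∀ s t, 1 ≤ s → s + 2 ≤ t → t ≤ S.smax → 80 * P.c t ≤ 3 * P.th s)
    (Ls : ℕ → Finset ℕ)
    (hLs : ∀ s, 1 ≤ s → s ≤ S.smax → ∀ m : ℝ, 3 / 8 * P.th s ≤ m → m ≤ 3 * P.c s →
      ∃ l ∈ Ls s, (1 / 2 : ℝ) ^ (l + 1) ≤ m ∧ m < (1 / 2 : ℝ) ^ l)
    (hb : ∀ s ∈ Icc 1 S.smax, ∀ a < S.na s, H3bU R P.act C7 L good Cap Fail o s a) :
    ∑ j ∈ range S.n, S.E (fun x => S.e j x o) ≤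
      4 * S.Gam + (He S (P.th 0 / 2) o + H241.GB1 S o 0)
      + (S.n * (S.nb S.smax * P.th S.smax) + 2 ^ S.smax * H241.GB0 S o S.smax)
      + ∑ s ∈ Icc 1 S.smax,
        ((16 * (P.th (s - 1) / P.th' s) * S.n + 2 ^ (s - 1) * H241.GB0 S o (s - 1))
        + (2 ^ s * (1 + L s) * (6 * (H241.GB0 S o s + H241.GB1 S o s)
            + 5 / 4 * ∑ t ∈ Icc (s + 2) S.smax, 2 ^ (t - s + 1) * (1 + H241.GB1 S o t))
          + TA S s (fun a x => Cap o s a x)
          + 2 ^ s * TA S s (fun a x => ind (Fail o s a x))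
          + 2 ^ s * (2 * (Ls s).card * (1 + H241.GB1 S o s))
          + 2 ^ s * TA S s (fun a x => ind (¬ good s a x))
          + 2 ^ s * H241.ED S o s)) := by
  have hmass := H241.mass_o S P.th P.th' o
  have h0 := T0_le S P.th o
  have h2 := H241.step2 S (th := P.th) (P.th_pos _).le o
  have h3 : ∀ s ∈ Icc 1 S.smax, H241.T3 S P.th P.th' o s ≤
      16 * (P.th (s - 1) / P.th' s) * S.n + 2 ^ (s - 1) * H241.GB0 S o (s - 1) := by
    intro s hs
    obtain ⟨hs1, hs2⟩ := mem_Icc.1 hs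
    obtain ⟨r, rfl⟩ : ∃ r, s = r + 1 := ⟨s - 1, by omega⟩
    simpa using H241.step3 S (th := P.th) (th' := P.th') hs2 (P.th_pos _).le (hth' _) o
  have h4 : ∀ s ∈ Icc 1 S.smax, H241.T4 S P.th P.th' o s ≤
      TT S s (fun a x k => 2 ^ s * (ind (P.th s ≤ S.nuT o s a x k ∧ S.nuT o s a x k ≤ P.th' s) *
        (S.rho o s a x k + S.G s a x (S.b1 o s k)))) := by
    intro s hs
    rw [TT_mul]
    exact H241.step4 S (mem_Icc.1 hs).2 P.th P.th' o
  have h11 := step11_all P (C7 := C7) (L := L) (good := good) (Cap := Cap) (Fail := Fail)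
    (edge := fun o s a x k => S.av ((a + 1) * 2 ^ s) (fun y => H241.edge S o s a y k) x)
    (o := o) hL hCap
    (fun s a x k => av_nonneg S (fun y => H241.edge_nonneg S o s a y k) x) hb
    (fun s _ a _ x k _ => H241.step10 S R C7 good o s a x k)
  have h34 : ∑ s ∈ Icc 1 S.smax, (H241.T3 S P.th P.th' o s + H241.T4 S P.th P.th' o s) ≤
      ∑ s ∈ Icc 1 S.smax,
        (16 * (P.th (s - 1) / P.th' s) * S.n + 2 ^ (s - 1) * H241.GB0 S o (s - 1)) +
      ∑ s ∈ Icc 1 S.smax, TT S s (fun a x k => 2 ^ s *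
        (ind (P.th s ≤ S.nuT o s a x k ∧ S.nuT o s a x k ≤ P.th' s) *
        (S.rho o s a x k + S.G s a x (S.b1 o s k)))) := by
    rw [Finset.sum_add_distrib]
    exact add_le_add (Finset.sum_le_sum h3) (Finset.sum_le_sum h4)
  have h5 : ∑ s ∈ Icc 1 S.smax,
      (2 ^ s * (1 + L s) * (6 * (GB0 S o s + GB1 S o s)
          + 5 / 4 * TT S s (fun a x k => Uw P o s a x k))
      + TA S s (fun a x => Cap o s a x)
      + 2 ^ s * TA S s (fun a x => ind (Fail o s a x))
      + 2 ^ s * TT S s (fun a x k => ind (AA P o s a x k) * S.av ((a + 1) * 2 ^ s)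
          (fun y => S.nuU o s a y k * ind (¬ S.nuU o s a y k ≤ C7 * R.m o s a x k)) x)
      + 2 ^ s * TA S s (fun a x => ind (¬ good s a x))
      + 2 ^ s * TT S s (fun a x k =>
          S.av ((a + 1) * 2 ^ s) (fun y => H241.edge S o s a y k) x)) ≤
      ∑ s ∈ Icc 1 S.smax,
      (2 ^ s * (1 + L s) * (6 * (H241.GB0 S o s + H241.GB1 S o s)
            + 5 / 4 * ∑ t ∈ Icc (s + 2) S.smax, 2 ^ (t - s + 1) * (1 + H241.GB1 S o t))
          + TA S s (fun a x => Cap o s a x)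
          + 2 ^ s * TA S s (fun a x => ind (Fail o s a x))
          + 2 ^ s * (2 * (Ls s).card * (1 + H241.GB1 S o s))
          + 2 ^ s * TA S s (fun a x => ind (¬ good s a x))
          + 2 ^ s * H241.ED S o s) := by
    refine Finset.sum_le_sum fun s hs => ?_
    obtain ⟨hs1, hs2⟩ := mem_Icc.1 hs
    have h2s : (0 : ℝ) < 2 ^ s := by positivity
    have hU := Us_term P hc o s (fun t ht1 ht2 => hP1 s t hs1 ht1 ht2)
    have hU' := mul_le_mul_of_nonneg_left hU
      (mul_nonneg (mul_nonneg h2s.le (by linarith [hL s] : (0 : ℝ) ≤ 1 + L s))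
        (by norm_num : (0 : ℝ) ≤ 5 / 4))
    have hC := R.cap_le hC7 o s (Ls s)
      (fun a x k => AA P o s a x k ∧ a < S.na s) (fun a x k hA => by
        obtain ⟨⟨hact, hT, _⟩, ha⟩ := hA
        obtain ⟨l, hl, hl1, hl2⟩ := hLs s hs1 hs2 (R.m o s a x k)
          (P.act_low o s a x k hs1 hs2 hact) (P.act_up o s a x k hs1 hs2 hact)
        refine ⟨l, hl, ⟨hl1, hl2⟩, ?_⟩
        have hG0 := G_nonneg S ha x (S.b0 o s k)
        have hm2 := nuT_le (R := R) hs2 ha o x k
        unfold Tight at hT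
        have := nuT_nonneg S o s a x k
        linarith)
    have hC2 : TT S s (fun a x k => ind (AA P o s a x k) * S.av ((a + 1) * 2 ^ s)
        (fun y => S.nuU o s a y k * ind (¬ S.nuU o s a y k ≤ C7 * R.m o s a x k)) x) ≤
        2 * (Ls s).card * (1 + H241.GB1 S o s) := by
      rw [cap_term]
      refine le_trans (le_of_eq ?_) hC
      refine Finset.sum_congr rfl fun a ha => ?_
      have ha' := Finset.mem_range.1 ha
      congr 1
      funext x
      refine Finset.sum_congr rfl fun k _ => ?_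
      congr 1
      exact ind_congr ⟨fun h => ⟨h, ha'⟩, fun h => h.1⟩
    have hC3 := mul_le_mul_of_nonneg_left hC2 h2s.le
    have hE : TT S s (fun a x k =>
        S.av ((a + 1) * 2 ^ s) (fun y => H241.edge S o s a y k) x) = H241.ED S o s :=
      H241.E_av_edge S o s
    have e0 : GB0 S o s = H241.GB0 S o s := rfl
    have e1 : GB1 S o s = H241.GB1 S o s := rfl
    rw [hE, e0, e1]
    nlinarith
  rw [Finset.sum_add_distrib]
  linarith

end

end Vale.Agent.P315.H295
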