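import Vale.Agent.P315.H295.Final

/-! P315, Part A: the accounting inequality averaged over the offsets of the grid.  helper295. -/

set_option autoImplicit false

open Finset

namespace Vale.Agent.P315.H295

open Vale.Agent.P315.Acc

variable {X : Type} [Fintype X] [Nonempty X]

section avO

variable (S : Sys X)

theorem D_cast_pos (s : ℕ) : (0 : ℝ) < S.D s := by exact_mod_cast D_pos S s

theorem avO_add (f g : ℕ → ℝ) : S.avO (fun o => f o + g o) = S.avO f + S.avO g := by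
  unfold Sys.avO; rw [Finset.sum_add_distrib, add_div]

theorem avO_mul (c : ℝ) (f : ℕ → ℝ) : S.avO (fun o => c * f o) = c * S.avO f := by
  unfold Sys.avO; rw [← Finset.mul_sum, mul_div_assoc]

theorem avO_const (c : ℝ) : S.avO (fun _ => c) = c := by
  unfold Sys.avO
  rw [Finset.sum_const, card_range, nsmul_eq_mul]
  field_simp [(D_cast_pos S S.smax).ne']

theorem avO_mono {f g : ℕ → ℝ} (h : ∀ o < S.D S.smax, f o ≤ g o) : S.avO f ≤ S.avO g := by
  unfold Sys.avO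
  exact div_le_div_of_nonneg_right (Finset.sum_le_sum fun o ho => h o (Finset.mem_range.1 ho))
    (D_cast_pos S S.smax).le

theorem avO_sum {ι : Type} (I : Finset ι) (f : ι → ℕ → ℝ) :
    S.avO (fun o => ∑ i ∈ I, f i o) = ∑ i ∈ I, S.avO (f i) := by
  unfold Sys.avO
  rw [Finset.sum_comm, Finset.sum_div]

end avO

variable {S : Sys X} {R : Mach S} (P : Thr S R)

/-- **THE ACCOUNTING THEOREM** (Part A), averaged over the offsets: `e j x (D smax)` = curve at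
the cut, `Gam` = total gain. -/
theorem final_avg {C7 : ℝ} (hC7 : 8 ≤ C7) {L : ℕ → ℝ} {good : ℕ → ℕ → X → Prop}
    {Cap : ℕ → ℕ → ℕ → X → ℝ} {Fail : ℕ → ℕ → ℕ → X → Prop}
    (hL : ∀ s, 0 ≤ L s) (hCap : ∀ o s a x, 0 ≤ Cap o s a x)
    (hc : ∀ t, 0 ≤ P.c t) (hth' : ∀ s, 0 < P.th' s)
    (hP1 : ∀ s t, 1 ≤ s → s + 2 ≤ t → t ≤ S.smax → 80 * P.c t ≤ 3 * P.th s)
    (Ls : ℕ → Finset ℕ)
    (hLs : ∀ s, 1 ≤ s → s ≤ S.smax → ∀ m : ℝ, 3 / 8 * P.th s ≤ m → m ≤ 3 * P.c s →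
      ∃ l ∈ Ls s, (1 / 2 : ℝ) ^ (l + 1) ≤ m ∧ m < (1 / 2 : ℝ) ^ l)
    (hb : ∀ o < S.D S.smax, ∀ s ∈ Icc 1 S.smax, ∀ a < S.na s,
      H3bU R P.act C7 L good Cap Fail o s a) :
    ∑ j ∈ range S.n, S.E (fun x => S.e j x (S.D S.smax)) ≤
      4 * S.Gam + (S.avO (fun o => He S (P.th 0 / 2) o) + S.Gam / S.D 0)
      + (S.n * (S.nb S.smax * P.th S.smax) + 2 ^ S.smax * (S.Gam / S.D S.smax))
      + ∑ s ∈ Icc 1 S.smax,
        ((16 * (P.th (s - 1) / P.th' s) * S.n + 2 ^ (s - 1) * (S.Gam / S.D (s - 1)))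
        + (2 ^ s * (1 + L s) * (12 * (S.Gam / S.D s)
            + 5 / 4 * ∑ t ∈ Icc (s + 2) S.smax, 2 ^ (t - s + 1) * (1 + S.Gam / S.D t))
          + S.avO (fun o => TA S s (fun a x => Cap o s a x))
          + 2 ^ s * S.avO (fun o => TA S s (fun a x => ind (Fail o s a x)))
          + 2 ^ s * (2 * (Ls s).card * (1 + S.Gam / S.D s))
          + 2 ^ s * TA S s (fun a x => ind (¬ good s a x))
          + S.n * (2 * 2 ^ s / S.D s))) := by
  have h1 := avO_mono S (f := fun _ => ∑ j ∈ range S.n, S.E (fun x => S.e j x (S.D S.smax)))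
    (g := fun o => 4 * S.Gam + (He S (P.th 0 / 2) o + H241.GB1 S o 0)
      + (S.n * (S.nb S.smax * P.th S.smax) + 2 ^ S.smax * H241.GB0 S o S.smax)
      + ∑ s ∈ Icc 1 S.smax,
        ((16 * (P.th (s - 1) / P.th' s) * S.n + 2 ^ (s - 1) * H241.GB0 S o (s - 1))
        + (2 ^ s * (1 + L s) * (6 * (H241.GB0 S o s + H241.GB1 S o s)
            + 5 / 4 * ∑ t ∈ Icc (s + 2) S.smax, 2 ^ (t - s + 1) * (1 + H241.GB1 S o t))
          + TA S s (fun a x => Cap o s a x)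
          + 2 ^ s * TA S s (fun a x => ind (Fail o s a x))
          + 2 ^ s * (2 * (Ls s).card * (1 + H241.GB1 S o s))
          + 2 ^ s * TA S s (fun a x => ind (¬ good s a x))
          + 2 ^ s * H241.ED S o s)))
    (fun o ho => (Finset.sum_le_sum fun j _ => E_mono S fun x => S.anti j x ho.le).trans
      (final_fixed P hC7 hL (hCap o) hc hth' hP1 Ls hLs (hb o ho)))
  rw [avO_const] at h1
  refine h1.trans ?_
  simp only [avO_add, avO_mul, avO_const, avO_sum]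
  have hF2a : ∀ s, s ≤ S.smax → S.avO (fun o => H241.GB0 S o s) ≤ S.Gam / S.D s :=
    fun s hs => H241.F2a S hs
  have hF2b : ∀ s, s ≤ S.smax → S.avO (fun o => H241.GB1 S o s) ≤ S.Gam / S.D s :=
    fun s hs => H241.F2b S hs
  have h2 := hF2b 0 (Nat.zero_le _)
  have h3 := mul_le_mul_of_nonneg_left (hF2a S.smax le_rfl)
    (by positivity : (0 : ℝ) ≤ 2 ^ S.smax)
  refine add_le_add (add_le_add (by linarith) (by linarith)) (Finset.sum_le_sum fun s hs => ?_)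
  obtain ⟨hs1, hs2⟩ := mem_Icc.1 hs
  have h2s : (0 : ℝ) < 2 ^ s := by positivity
  have k1 := mul_le_mul_of_nonneg_left (hF2a (s - 1) (by omega))
    (by positivity : (0 : ℝ) ≤ 2 ^ (s - 1))
  have k2 := hF2a s hs2
  have k3 := hF2b s hs2
  have k4 : ∑ t ∈ Icc (s + 2) S.smax,
      2 ^ (t - s + 1) * (1 + S.avO (fun o => H241.GB1 S o t)) ≤
      ∑ t ∈ Icc (s + 2) S.smax, 2 ^ (t - s + 1) * (1 + S.Gam / S.D t) := by
    refine Finset.sum_le_sum fun t ht => ?_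
    have := hF2b t (mem_Icc.1 ht).2
    exact mul_le_mul_of_nonneg_left (by linarith) (by positivity)
  have k5 := mul_le_mul_of_nonneg_left (by linarith :
      6 * (S.avO (fun o => H241.GB0 S o s) + S.avO (fun o => H241.GB1 S o s)) +
        5 / 4 * ∑ t ∈ Icc (s + 2) S.smax,
          2 ^ (t - s + 1) * (1 + S.avO (fun o => H241.GB1 S o t)) ≤
      12 * (S.Gam / S.D s) + 5 / 4 * ∑ t ∈ Icc (s + 2) S.smax,
        2 ^ (t - s + 1) * (1 + S.Gam / S.D t))
    (mul_nonneg h2s.le (by linarith [hL s] : (0 : ℝ) ≤ 1 + L s))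
  have k6 := H241.ED_avO S hs2
  have k7 := mul_le_mul_of_nonneg_left (by linarith :
      1 + S.avO (fun o => H241.GB1 S o s) ≤ 1 + S.Gam / S.D s)
    (by positivity : (0 : ℝ) ≤ 2 ^ s * (2 * ((Ls s).card : ℝ)))
  have k8 : 2 ^ s * (2 * ((Ls s).card : ℝ) * (1 + S.avO (fun o => H241.GB1 S o s))) ≤
      2 ^ s * (2 * ((Ls s).card : ℝ) * (1 + S.Gam / S.D s)) := by
    simpa only [mul_assoc] using k7
  linarith

end Vale.Agent.P315.H295
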