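import Vale.Agent.P315.H679.AccDefs

/-! P315, Part A, A-SHORT: STEP 6 (multiplicity two) over `AccDefs`.  helper295. -/

set_option autoImplicit false

open Finset

namespace Vale.Agent.P315.H295

open Vale.Agent.P315.Acc

variable {X : Type} [Fintype X] [Nonempty X] (S : Sys X)

/-! ### basic API -/

theorem E_add (f g : X → ℝ) : S.E (fun x => f x + g x) = S.E f + S.E g := EE_add f g
theorem E_sub (f g : X → ℝ) : S.E (fun x => f x - g x) = S.E f - S.E g := EE_sub f g
theorem E_mul (c : ℝ) (f : X → ℝ) : S.E (fun x => c * f x) = c * S.E f := EE_mul_left c f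
theorem E_mono {f g : X → ℝ} (h : ∀ x, f x ≤ g x) : S.E f ≤ S.E g := EE_mono S.hw h
theorem E_nonneg {f : X → ℝ} (h : ∀ x, 0 ≤ f x) : 0 ≤ S.E f := EE_nonneg S.hw h
theorem E_sum {ι : Type} (s : Finset ι) (f : ι → X → ℝ) :
    S.E (fun x => ∑ i ∈ s, f i x) = ∑ i ∈ s, S.E (f i) := EE_sum s f
theorem E_zero : S.E (fun _ => 0) = 0 := by
  have := E_mul S 0 (fun _ => 0); simpa using this

theorem nest_le {i j : ℕ} (h : i ≤ j) {x y : X} (hxy : S.q i x = S.q i y) :
    S.q j x = S.q j y := by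
  induction j, h using Nat.le_induction with
  | base => exact hxy
  | succ k _ ih => exact S.nest _ _ _ ih

/-- measurable with respect to level `j` -/
def Meas (j : ℕ) (h : X → ℝ) : Prop := ∀ x y, S.q j x = S.q j y → h x = h y

theorem Meas.mono {S : Sys X} {i j : ℕ} (hij : i ≤ j) {h : X → ℝ} (hh : Meas S j h) :
    Meas S i h := fun _ _ hxy => hh _ _ (nest_le S hij hxy)

theorem E_pull {j : ℕ} {h f : X → ℝ} (hh : Meas S j h) :
    S.E (fun x => h x * S.av j f x) = S.E (fun x => h x * f x) :=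
  EE_pull S.hw j fun x y hxy => hh y x hxy

theorem g_nonneg {j : ℕ} (hj : j < S.n) (x : X) (b : ℕ) : 0 ≤ S.g j x b :=
  sub_nonneg.2 (S.gain j x b hj)

theorem E_g (j : ℕ) (b : ℕ) {h : X → ℝ} (hh : Meas S (j + 1) h) :
    S.E (fun x => h x * S.g j x b) =
      S.E (fun x => h x * S.e j x b) - S.E (fun x => h x * S.e (j + 1) x b) := by
  have h1 : (fun x => h x * S.g j x b) =
      fun x => h x * S.av (j + 1) (fun y => S.e j y b) x - h x * S.e (j + 1) x b := by
    funext x; simp only [Sys.g]; ring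
  rw [h1, E_sub, E_pull S hh]

theorem E_telescope (i m : ℕ) (b : ℕ) {h : X → ℝ} (hh : Meas S (i + m) h) :
    ∑ r ∈ range m, S.E (fun x => h x * S.g (i + r) x b) =
      S.E (fun x => h x * S.e i x b) - S.E (fun x => h x * S.e (i + m) x b) := by
  induction m with
  | zero => simp
  | succ m ih =>
    rw [Finset.sum_range_succ, ih (hh.mono (by omega)), E_g S (i + m) b (hh.mono (by omega))]
    have : i + (m + 1) = i + m + 1 := by ring
    rw [this]; ring

theorem lev_eq (s a : ℕ) : a * 2 ^ s + 2 ^ s = (a + 1) * 2 ^ s := by ring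

/-- expectation of a top-measurable multiple of the gain `G s a` -/
theorem E_G (s a : ℕ) (b : ℕ) {h : X → ℝ} (hh : Meas S ((a + 1) * 2 ^ s) h) :
    S.E (fun x => h x * S.G s a x b) =
      ∑ r ∈ range (2 ^ s), S.E (fun x => h x * S.g (a * 2 ^ s + r) x b) := by
  rw [E_telescope S (a * 2 ^ s) (2 ^ s) b (by rw [lev_eq]; exact hh), lev_eq]
  have h1 : (fun x => h x * S.G s a x b) =
      fun x => h x * S.av ((a + 1) * 2 ^ s) (fun y => S.e (a * 2 ^ s) y b) x
        - h x * S.e ((a + 1) * 2 ^ s) x b := by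
    funext x; simp only [Sys.G, Sys.V]; ring
  rw [h1, E_sub, E_pull S hh]

theorem na_mul {s : ℕ} (hs : s ≤ S.smax) : S.na s * 2 ^ s = S.n :=
  Nat.div_mul_cancel ((pow_dvd_pow 2 hs).trans S.hn)

theorem nb_mul_D {s : ℕ} (hs : s ≤ S.smax) : S.nb s * S.D s = S.T := by
  unfold Sys.nb Sys.D Sys.T Sys.D
  have : 16 ^ (S.smax - s) * 16 ^ s = 16 ^ S.smax := by rw [← pow_add]; congr 1; omega
  calc S.NB * 16 ^ (S.smax - s) * (16 ^ s * S.D0)
      = S.NB * ((16 ^ (S.smax - s) * 16 ^ s) * S.D0) := by ring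
    _ = _ := by rw [this]

theorem D_pos (s : ℕ) : 0 < S.D s := Nat.mul_pos (by positivity) S.hD0

/-- regrouping of `range (m * P)` into `m` groups of length `P` -/
theorem sum_group {P : ℕ} (hP : 0 < P) (m : ℕ) (F : ℕ → ℕ → ℝ) :
    ∑ a ∈ range m, ∑ r ∈ range P, F a (a * P + r) = ∑ j ∈ range (m * P), F (j / P) j := by
  induction m with
  | zero => simp
  | succ m ih =>
    rw [Finset.sum_range_succ, ih, Nat.succ_mul, Finset.sum_range_add]
    congr 1
    refine Finset.sum_congr rfl fun r hr => ?_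
    have hr' : r < P := Finset.mem_range.1 hr
    have : (m * P + r) / P = m := by
      rw [mul_comm, Nat.mul_add_div hP, Nat.div_eq_of_lt hr', add_zero]
    rw [this]

/-- The gains of scale `s` on an arbitrary family `A` of boxes, written as a sum over all levels
and all indices. -/
theorem sum_G_eq {s : ℕ} (hs : s ≤ S.smax) (o : ℕ) (A : ℕ → X → ℕ → Prop)
    (hA : ∀ a x y k, S.q ((a + 1) * 2 ^ s) x = S.q ((a + 1) * 2 ^ s) y → (A a x k ↔ A a y k)) :
    ∑ a ∈ range (S.na s), S.E (fun x => ∑ k ∈ range (S.nb s),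
        ind (A a x k) * ∑ i ∈ range (S.D s), S.G s a x (S.b0 o s k + i)) =
      ∑ j ∈ range S.n, ∑ b ∈ range S.T,
        S.E (fun x => ind (A (j / 2 ^ s) x (b / S.D s)) * S.g j x (o + b)) := by
  have hP : 0 < 2 ^ s := by positivity
  rw [← na_mul S hs, ← nb_mul_D S hs]
  rw [← sum_group hP (S.na s) (fun a j => ∑ b ∈ range (S.nb s * S.D s),
        S.E (fun x => ind (A a x (b / S.D s)) * S.g j x (o + b)))]
  refine Finset.sum_congr rfl fun a _ => ?_
  have h1 : ∀ r, ∑ b ∈ range (S.nb s * S.D s),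
      S.E (fun x => ind (A a x (b / S.D s)) * S.g (a * 2 ^ s + r) x (o + b)) =
      ∑ k ∈ range (S.nb s), ∑ i ∈ range (S.D s),
        S.E (fun x => ind (A a x k) * S.g (a * 2 ^ s + r) x (o + (k * S.D s + i))) := by
    intro r
    rw [sum_group (D_pos S s) (S.nb s) (fun k b =>
      S.E (fun x => ind (A a x k) * S.g (a * 2 ^ s + r) x (o + b)))]
  simp_rw [h1]
  rw [E_sum, Finset.sum_comm]
  refine Finset.sum_congr rfl fun k _ => ?_
  simp_rw [Finset.mul_sum]
  rw [E_sum, Finset.sum_comm]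
  refine Finset.sum_congr rfl fun i _ => ?_
  have hm : Meas S ((a + 1) * 2 ^ s) (fun x => ind (A a x k)) :=
    fun x y hxy => ind_congr (hA a x y k hxy)
  rw [E_G S s a (S.b0 o s k + i) hm]
  refine Finset.sum_congr rfl fun r _ => ?_
  have : S.b0 o s k + i = o + (k * S.D s + i) := by unfold Sys.b0; ring
  rw [this]

/-- The total gain on a shifted window. -/
theorem sum_window_le (o : ℕ) :
    ∑ j ∈ range S.n, ∑ b ∈ range S.T, S.E (fun x => S.g j x (o + b)) ≤ S.Gam := by
  have hfin : ∀ j x b, S.T ≤ b → S.e j x b = 0 := fun j x b hb => S.final j x b hb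
  have h1 : ∀ b, ∑ j ∈ range S.n, S.E (fun x => S.g j x b) =
      S.E (fun x => S.e 0 x b) - S.E (fun x => S.e S.n x b) := by
    intro b
    have := E_telescope S 0 S.n b (h := fun _ => (1 : ℝ)) (fun _ _ _ => rfl)
    simpa using this
  have h0 : ∀ b, 0 ≤ S.E (fun x => S.e 0 x b) - S.E (fun x => S.e S.n x b) := by
    intro b
    rw [← h1 b]
    exact Finset.sum_nonneg fun j hj => E_nonneg S fun x => g_nonneg S (Finset.mem_range.1 hj) x b
  rw [Finset.sum_comm]
  simp_rw [h1]
  unfold Sys.Gam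
  -- shifted sum
  have h2 : ∑ b ∈ range S.T, (S.E (fun x => S.e 0 x (o + b)) - S.E (fun x => S.e S.n x (o + b))) =
      ∑ b ∈ Finset.Ico o (o + S.T), (S.E (fun x => S.e 0 x b) - S.E (fun x => S.e S.n x b)) := by
    rw [Finset.sum_Ico_eq_sum_range]; simp
  rw [h2]
  have h3 : ∑ b ∈ Finset.Ico o (o + S.T),
      (S.E (fun x => S.e 0 x b) - S.E (fun x => S.e S.n x b)) =
      ∑ b ∈ (Finset.Ico o (o + S.T)).filter (· < S.T),
      (S.E (fun x => S.e 0 x b) - S.E (fun x => S.e S.n x b)) := by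
    rw [Finset.sum_filter]
    refine Finset.sum_congr rfl fun b _ => ?_
    split_ifs with hb
    · rfl
    · push Not at hb
      simp only [hfin _ _ b hb, E_zero, sub_self]
  rw [h3]
  refine Finset.sum_le_sum_of_subset_of_nonneg ?_ fun b _ _ => h0 b
  intro b hb
  simp only [mem_filter, mem_Ico] at hb
  exact Finset.mem_range.2 hb.2

/-- a set of naturals in which no two elements differ by `2` or more has at most two elements -/
theorem card_le_two {F : Finset ℕ} (h : ∀ s ∈ F, ∀ t ∈ F, s + 2 ≤ t → False) : F.card ≤ 2 := by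
  classical
  by_cases hF : F.Nonempty
  · obtain ⟨s, hs, hmin⟩ := Finset.exists_min_image F (fun t => t) hF
    have hsub : F ⊆ {s, s + 1} := by
      intro t ht
      have h1 := hmin t ht
      have h2 : ¬ s + 2 ≤ t := fun h' => h s hs t ht h'
      simp only [mem_insert, mem_singleton]
      omega
    exact (Finset.card_le_card hsub).trans (Finset.card_le_two)
  · rw [Finset.not_nonempty_iff_eq_empty.1 hF]; simp

theorem div_pow_div (j s t : ℕ) (hst : s ≤ t) : j / 2 ^ s / 2 ^ (t - s) = j / 2 ^ t := by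
  rw [Nat.div_div_eq_div_mul, ← pow_add]; congr 2; omega

theorem div_D_div (b : ℕ) {s t : ℕ} (hst : s ≤ t) :
    b / S.D s / 16 ^ (t - s) = b / S.D t := by
  rw [Nat.div_div_eq_div_mul]
  congr 1
  unfold Sys.D
  have : 16 ^ s * 16 ^ (t - s) = 16 ^ t := by rw [← pow_add]; congr 1; omega
  calc 16 ^ s * S.D0 * 16 ^ (t - s) = (16 ^ s * 16 ^ (t - s)) * S.D0 := by ring
    _ = _ := by rw [this]

/-- **STEP 6** (multiplicity two).  If `A s` is any family of boxes (top `a` of scale `s` above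
the leaf `x`, block `k` of scale `s`) such that no box of `A s` lies in a box of `A t` for
`t ≥ s + 2`, then the gains of all scales on these boxes are together at most `2 Γ`. -/
theorem step6 (o : ℕ) (Sc : Finset ℕ) (hSc : ∀ s ∈ Sc, s ≤ S.smax)
    (A : ℕ → ℕ → X → ℕ → Prop)
    (hA : ∀ s ∈ Sc, ∀ a x y k, S.q ((a + 1) * 2 ^ s) x = S.q ((a + 1) * 2 ^ s) y →
      (A s a x k ↔ A s a y k))
    (hmult : ∀ s ∈ Sc, ∀ t ∈ Sc, s + 2 ≤ t → ∀ a < S.na s, ∀ x, ∀ k < S.nb s, A s a x k →
      ¬ A t (a / 2 ^ (t - s)) x (k / 16 ^ (t - s))) :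
    ∑ s ∈ Sc, ∑ a ∈ range (S.na s), S.E (fun x => ∑ k ∈ range (S.nb s),
        ind (A s a x k) * ∑ i ∈ range (S.D s), S.G s a x (S.b0 o s k + i)) ≤ 2 * S.Gam := by
  classical
  rw [Finset.sum_congr rfl fun s hs => sum_G_eq S (hSc s hs) o (A s) (hA s hs)]
  rw [Finset.sum_comm]
  refine le_trans ?_ (mul_le_mul_of_nonneg_left (sum_window_le S o) (by norm_num))
  rw [Finset.mul_sum]
  refine Finset.sum_le_sum fun j hj => ?_
  have hj' := Finset.mem_range.1 hj
  rw [Finset.sum_comm, Finset.mul_sum]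
  refine Finset.sum_le_sum fun b hb => ?_
  have hb' := Finset.mem_range.1 hb
  rw [← E_sum, ← E_mul]
  refine E_mono S fun x => ?_
  rw [← Finset.sum_mul]
  refine mul_le_mul_of_nonneg_right ?_ (g_nonneg S hj' x _)
  have h1 : ∑ s ∈ Sc, ind (A s (j / 2 ^ s) x (b / S.D s)) =
      ((Sc.filter (fun s => A s (j / 2 ^ s) x (b / S.D s))).card : ℝ) := by
    rw [Finset.card_filter]
    push_cast
    refine Finset.sum_congr rfl fun s _ => ?_
    unfold ind
    split_ifs <;> simp
  rw [h1]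
  have h2 : (Sc.filter (fun s => A s (j / 2 ^ s) x (b / S.D s))).card ≤ 2 := by
    refine card_le_two fun s hs t ht hst => ?_
    simp only [mem_filter] at hs ht
    have hs' := hSc s hs.1
    have ha : j / 2 ^ s < S.na s := by
      rw [Nat.div_lt_iff_lt_mul (by positivity), na_mul S hs']; exact hj'
    have hk : b / S.D s < S.nb s := by
      rw [Nat.div_lt_iff_lt_mul (D_pos S s), nb_mul_D S hs']; exact hb'
    have h3 := hmult s hs.1 t ht.1 hst _ ha x _ hk hs.2
    rw [div_pow_div j s t (by omega), div_D_div S b (by omega)] at h3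
    exact h3 ht.2
  exact_mod_cast h2

end Vale.Agent.P315.H295
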