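import Vale.Agent.P315.H295.Mult

/-! P315, Part A, A-SHORT (helper728 / helper13): STEP 4, 5, 7, 8 pointwise, STEP 11 for one
offset and one scale, and the sum over the scales with STEP 6.  helper295. -/

set_option autoImplicit false

open Finset

namespace Vale.Agent.P315.H295

open Vale.Agent.P315.Acc

variable {X : Type} [Fintype X] [Nonempty X]

/-- Sum over the tops of scale `s` (averaged over the leaves) and over the blocks. -/
noncomputable def TT (S : Sys X) (s : ℕ) (F : ℕ → X → ℕ → ℝ) : ℝ :=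
  ∑ a ∈ range (S.na s), S.E (fun x => ∑ k ∈ range (S.nb s), F a x k)

/-- Sum over the tops of scale `s` (averaged over the leaves). -/
noncomputable def TA (S : Sys X) (s : ℕ) (F : ℕ → X → ℝ) : ℝ :=
  ∑ a ∈ range (S.na s), S.E (fun x => F a x)

section TT

variable (S : Sys X)

theorem TT_add (s : ℕ) (F H : ℕ → X → ℕ → ℝ) :
    TT S s (fun a x k => F a x k + H a x k) = TT S s F + TT S s H := by
  unfold TT
  simp only [Finset.sum_add_distrib, E_add]

theorem TT_mul (s : ℕ) (c : ℝ) (F : ℕ → X → ℕ → ℝ) :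
    TT S s (fun a x k => c * F a x k) = c * TT S s F := by
  unfold TT
  rw [Finset.mul_sum]
  refine Finset.sum_congr rfl fun a _ => ?_
  rw [← E_mul]
  congr 1
  funext x
  rw [Finset.mul_sum]

theorem TT_mono (s : ℕ) {F H : ℕ → X → ℕ → ℝ}
    (h : ∀ a < S.na s, ∀ x, ∀ k < S.nb s, F a x k ≤ H a x k) : TT S s F ≤ TT S s H := by
  refine Finset.sum_le_sum fun a ha => E_mono S fun x => Finset.sum_le_sum fun k hk => ?_
  exact h a (Finset.mem_range.1 ha) x k (Finset.mem_range.1 hk)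

theorem TT_nonneg (s : ℕ) {F : ℕ → X → ℕ → ℝ}
    (h : ∀ a < S.na s, ∀ x, ∀ k < S.nb s, 0 ≤ F a x k) : 0 ≤ TT S s F := by
  refine Finset.sum_nonneg fun a ha => E_nonneg S fun x => Finset.sum_nonneg fun k hk => ?_
  exact h a (Finset.mem_range.1 ha) x k (Finset.mem_range.1 hk)

theorem TA_add (s : ℕ) (F H : ℕ → X → ℝ) :
    TA S s (fun a x => F a x + H a x) = TA S s F + TA S s H := by
  unfold TA
  simp only [Finset.sum_add_distrib, E_add]

theorem TA_mul (s : ℕ) (c : ℝ) (F : ℕ → X → ℝ) :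
    TA S s (fun a x => c * F a x) = c * TA S s F := by
  unfold TA
  rw [Finset.mul_sum]
  exact Finset.sum_congr rfl fun a _ => E_mul S _ _

theorem TA_mono (s : ℕ) {F H : ℕ → X → ℝ}
    (h : ∀ a < S.na s, ∀ x, F a x ≤ H a x) : TA S s F ≤ TA S s H :=
  Finset.sum_le_sum fun a ha => E_mono S fun x => h a (Finset.mem_range.1 ha) x

theorem TT_eq_TA (s : ℕ) (F : ℕ → X → ℕ → ℝ) :
    TT S s F = TA S s (fun a x => ∑ k ∈ range (S.nb s), F a x k) := rfl

end TT

section basic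

variable (S : Sys X)

theorem av_av {i j : ℕ} (hij : i ≤ j) (f : X → ℝ) (x : X) : S.av j (S.av i f) x = S.av j f x :=
  avg_avg S.hw (fun _ _ h => nest_le S hij h) f x

theorem av_mono {j : ℕ} {f g : X → ℝ} (h : ∀ x, f x ≤ g x) (x : X) : S.av j f x ≤ S.av j g x :=
  avg_mono S.hw x fun y _ => h y

theorem av_nonneg {j : ℕ} {f : X → ℝ} (h : ∀ x, 0 ≤ f x) (x : X) : 0 ≤ S.av j f x :=
  avg_nonneg S.hw x fun y _ => h y

theorem av_add (j : ℕ) (f g : X → ℝ) (x : X) :
    S.av j (fun y => f y + g y) x = S.av j f x + S.av j g x := avg_add j f g x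

theorem av_sub (j : ℕ) (f g : X → ℝ) (x : X) :
    S.av j (fun y => f y - g y) x = S.av j f x - S.av j g x := avg_sub j f g x

theorem av_self {j : ℕ} {f : X → ℝ} (hf : Meas S j f) (x : X) : S.av j f x = f x :=
  avg_const S.hw x fun _ h => hf _ _ h

theorem e_le_av {i j : ℕ} (hij : i ≤ j) (hj : j ≤ S.n) (x : X) (b : ℕ) :
    S.e j x b ≤ S.av j (fun y => S.e i y b) x := by
  induction j, hij using Nat.le_induction generalizing x with
  | base =>
    refine le_of_eq (av_self S (f := fun y => S.e i y b) ?_ x).symm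
    intro y z h; simp only [S.meas i y z h]
  | succ j hij ih =>
    have h1 := S.gain j x b (by omega)
    have h2 : S.av (j + 1) (fun y => S.e j y b) x
        ≤ S.av (j + 1) (S.av j (fun y => S.e i y b)) x :=
      av_mono S (fun y => ih (by omega) y) x
    rw [av_av S (Nat.le_succ j)] at h2
    exact h1.trans h2

theorem top_le {s a : ℕ} (ha : a < S.na s) : (a + 1) * 2 ^ s ≤ S.n := by
  have : a + 1 ≤ S.n / 2 ^ s := ha
  exact (Nat.mul_le_mul_right _ this).trans (Nat.div_mul_le_self _ _)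

theorem G_nonneg {s a : ℕ} (ha : a < S.na s) (x : X) (b : ℕ) : 0 ≤ S.G s a x b := by
  unfold Sys.G Sys.V
  exact sub_nonneg.2 (e_le_av S (Nat.mul_le_mul_right _ (Nat.le_succ a)) (top_le S ha) x b)

theorem b0_le_b1 (o s k : ℕ) : S.b0 o s k ≤ S.b1 o s k := by
  unfold Sys.b0 Sys.b1
  have : k * S.D s ≤ (k + 1) * S.D s := Nat.mul_le_mul_right _ (Nat.le_succ k)
  omega

theorem nuT_nonneg (o s a : ℕ) (x : X) (k : ℕ) : 0 ≤ S.nuT o s a x k :=
  sub_nonneg.2 (S.anti _ x (b0_le_b1 S o s k))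

theorem nuU_nonneg (o s a : ℕ) (x : X) (k : ℕ) : 0 ≤ S.nuU o s a x k :=
  sub_nonneg.2 (S.anti _ x (b0_le_b1 S o s k))

/-- (F1), exact form. -/
theorem rho_eq (o s a : ℕ) (x : X) (k : ℕ) :
    S.rho o s a x k = S.nuT o s a x k + S.G s a x (S.b0 o s k) - S.G s a x (S.b1 o s k) := by
  unfold Sys.rho Sys.nuT Sys.nu Sys.G; ring

theorem rho_eq_av (o s a : ℕ) (x : X) (k : ℕ) :
    S.rho o s a x k = S.av ((a + 1) * 2 ^ s) (fun y => S.nuU o s a y k) x := by
  unfold Sys.rho Sys.nuU Sys.nu Sys.V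
  rw [av_sub]

theorem rho_nonneg (o s a : ℕ) (x : X) (k : ℕ) : 0 ≤ S.rho o s a x k := by
  rw [rho_eq_av]; exact av_nonneg S (fun y => nuU_nonneg S o s a y k) x

theorem sum_rho_le_one (o s a : ℕ) (x : X) (N : ℕ) :
    ∑ k ∈ range N, S.rho o s a x k ≤ 1 := by
  have h1 : ∀ N, ∑ k ∈ range N, S.rho o s a x k =
      S.V s a x (S.b0 o s 0) - S.V s a x (S.b0 o s N) := by
    intro N
    induction N with
    | zero => simp
    | succ N ih =>
      rw [Finset.sum_range_succ, ih]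
      have : S.b0 o s (N + 1) = S.b1 o s N := rfl
      rw [this]; unfold Sys.rho; ring
  rw [h1]
  have h2 : S.V s a x (S.b0 o s 0) ≤ 1 := by
    have := av_mono S (j := (a + 1) * 2 ^ s) (f := fun y => S.e (a * 2 ^ s) y (S.b0 o s 0))
      (g := fun _ => 1) (fun y => S.le_one _ y _) x
    rw [av_self S (f := fun _ => (1 : ℝ)) (fun _ _ _ => rfl)] at this
    exact this
  have h3 : 0 ≤ S.V s a x (S.b0 o s N) := av_nonneg S (fun y => S.nonneg _ y _) x
  linarith

end basic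

/-- Data of the accounting: thresholds and active blocks (union form). -/
structure Thr (S : Sys X) (R : Mach S) where
  th : ℕ → ℝ
  th' : ℕ → ℝ
  /-- upper end of the activity range; `c = th'` for the additive theorem -/
  c : ℕ → ℝ
  /-- active blocks -/
  act : ℕ → ℕ → ℕ → X → ℕ → Prop
  th_pos : ∀ s, 0 < th s
  tau_le : ∀ s, 1 ≤ s → s ≤ S.smax → 1000 * R.tau s ≤ th s
  act_meas : ∀ o s a x y k, S.q ((a + 1) * 2 ^ s) x = S.q ((a + 1) * 2 ^ s) y →
    (act o s a x k ↔ act o s a y k)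
  act_of : ∀ o s a x k, 1 ≤ s → s ≤ S.smax → 3 / 4 * th s ≤ R.m o s a x k →
    R.m o s a x k ≤ 5 / 4 * th' s → act o s a x k
  act_low : ∀ o s a x k, 1 ≤ s → s ≤ S.smax → act o s a x k → 3 / 8 * th s ≤ R.m o s a x k
  act_up : ∀ o s a x k, 1 ≤ s → s ≤ S.smax → act o s a x k → R.m o s a x k ≤ 3 * c s

/-- The machine inequality (H3b) in union form, for one top and one offset: `act` = union of the
classes of the machines, `Cap` = sum of their capacities, `Fail` = union of the failures. -/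
def H3bU {S : Sys X} (R : Mach S) (act : ℕ → ℕ → ℕ → X → ℕ → Prop) (C7 : ℝ) (L : ℕ → ℝ)
    (good : ℕ → ℕ → X → Prop) (Cap : ℕ → ℕ → ℕ → X → ℝ) (Fail : ℕ → ℕ → ℕ → X → Prop)
    (o s a : ℕ) : Prop :=
  ∀ x, ¬ Fail o s a x → ∀ A : Finset ℕ, (∀ k ∈ A, k < S.nb s ∧ act o s a x k) →
    ∑ k ∈ A, R.lhs C7 good o s a x k ≤
      2 * ∑ k ∈ A, ∑ i ∈ range (S.D s), S.G s a x (S.b0 o s k + i) +
      2 ^ s * L s * (∑ k ∈ (range (S.nb s)).filter (fun k => k ∉ A),
        ind (act o s a x k) * R.m o s a x k) + Cap o s a x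

section pointwise

variable {S : Sys X} {R : Mach S} (P : Thr S R)

/-- tight -/
def Tight (R : Mach S) (o s a : ℕ) (x : X) (k : ℕ) : Prop :=
  S.G s a x (S.b0 o s k) + S.G s a x (S.b1 o s k) + 2 * R.tau s ≤ S.nuT o s a x k / 4

/-- up-stable -/
def Upst (o s a : ℕ) (x : X) (k : ℕ) : Prop :=
  ∀ t ∈ Icc (s + 2) S.smax, 4 * P.c t < S.nuT o t (a / 2 ^ (t - s)) x (k / 16 ^ (t - s))

/-- the boxes on which the machine inequality is used as an upper bound -/
def AA (o s a : ℕ) (x : X) (k : ℕ) : Prop :=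
  P.act o s a x k ∧ Tight R o s a x k ∧ Upst P o s a x k

/-- the mass of the boxes that are not up-stable -/
noncomputable def Uw (o s a : ℕ) (x : X) (k : ℕ) : ℝ :=
  ind (3 / 10 * P.th s ≤ S.nuT o s a x k ∧ ∃ t ∈ Icc (s + 2) S.smax,
    S.nuT o t (a / 2 ^ (t - s)) x (k / 16 ^ (t - s)) ≤ 4 * P.c t) * S.nuT o s a x k

variable {P}

theorem Uw_nonneg (o s a : ℕ) (x : X) (k : ℕ) : 0 ≤ Uw P o s a x k :=
  mul_nonneg (ind_nonneg _) (nuT_nonneg S _ _ _ _ _)

theorem m_le {s a : ℕ} (hs : s ≤ S.smax) (ha : a < S.na s) (o : ℕ) (x : X) (k : ℕ) :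
    R.m o s a x k ≤ S.nuT o s a x k + S.G s a x (S.b0 o s k) + 2 * R.tau s := by
  have h1 := R.om_le s a x (S.b0 o s k) hs ha
  have h2 := R.le_om s a x (S.b1 o s k) hs ha
  unfold Mach.m Sys.nuT Sys.nu Sys.G
  linarith

theorem nuT_le {s a : ℕ} (hs : s ≤ S.smax) (ha : a < S.na s) (o : ℕ) (x : X) (k : ℕ) :
    S.nuT o s a x k ≤ R.m o s a x k + S.G s a x (S.b1 o s k) + 2 * R.tau s := by
  have h1 := R.le_om s a x (S.b0 o s k) hs ha
  have h2 := R.om_le s a x (S.b1 o s k) hs ha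
  unfold Mach.m Sys.nuT Sys.nu Sys.G
  linarith

theorem m_nonneg (o s a : ℕ) (x : X) (k : ℕ) : 0 ≤ R.m o s a x k :=
  sub_nonneg.2 (R.omAnti s a x (b0_le_b1 S o s k))

/-- STEP 4 + 5 (pointwise): heavy, not too heavy boxes. -/
theorem step45 {s a : ℕ} (hs1 : 1 ≤ s) (hs : s ≤ S.smax) (ha : a < S.na s) (o : ℕ) (x : X)
    (k : ℕ) :
    ind (P.th s ≤ S.nuT o s a x k ∧ S.nuT o s a x k ≤ P.th' s) *
        (S.rho o s a x k + S.G s a x (S.b1 o s k)) ≤
      ind (AA P o s a x k) * S.rho o s a x k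
      + 6 * (S.G s a x (S.b0 o s k) + S.G s a x (S.b1 o s k)) + 5 / 4 * Uw P o s a x k := by
  have hG0 := G_nonneg S ha x (S.b0 o s k)
  have hG1 := G_nonneg S ha x (S.b1 o s k)
  have hrho := rho_nonneg S o s a x k
  have hnu := nuT_nonneg S o s a x k
  have hU := Uw_nonneg (P := P) o s a x k
  have hrn := rho_eq S o s a x k
  have hAr : 0 ≤ ind (AA P o s a x k) * S.rho o s a x k := mul_nonneg (ind_nonneg _) hrho
  have htau := P.tau_le s hs1 hs
  have htau0 := R.tau_nonneg s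
  by_cases hI : P.th s ≤ S.nuT o s a x k ∧ S.nuT o s a x k ≤ P.th' s
  swap
  · rw [ind_false hI]; nlinarith
  rw [ind_true hI, one_mul]
  obtain ⟨hI1, hI2⟩ := hI
  by_cases hT : Tight R o s a x k
  swap
  · unfold Tight at hT
    push Not at hT
    nlinarith
  have hT' := hT
  unfold Tight at hT'
  have hm1 := m_le (R := R) hs ha o x k
  have hm2 := nuT_le (R := R) hs ha o x k
  have hact : P.act o s a x k :=
    P.act_of o s a x k hs1 hs (by nlinarith) (by nlinarith)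
  by_cases hUp : Upst P o s a x k
  · have hAA : AA P o s a x k := ⟨hact, hT, hUp⟩
    rw [ind_true hAA, one_mul]
    nlinarith
  · have hex : 3 / 10 * P.th s ≤ S.nuT o s a x k ∧ ∃ t ∈ Icc (s + 2) S.smax,
        S.nuT o t (a / 2 ^ (t - s)) x (k / 16 ^ (t - s)) ≤ 4 * P.c t := by
      refine ⟨by nlinarith [P.th_pos s], ?_⟩
      unfold Upst at hUp
      push Not at hUp
      exact hUp
    have hU' : Uw P o s a x k = S.nuT o s a x k := by
      unfold Uw; rw [ind_true hex, one_mul]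
    rw [hU']
    nlinarith

/-- STEP 7 + 8 (pointwise): the charges. -/
theorem step78 {s a : ℕ} (hs1 : 1 ≤ s) (hs : s ≤ S.smax) (ha : a < S.na s) (o : ℕ) (x : X)
    (k : ℕ) :
    ind (P.act o s a x k ∧ ¬ AA P o s a x k) * R.m o s a x k ≤
      6 * (S.G s a x (S.b0 o s k) + S.G s a x (S.b1 o s k)) + 5 / 4 * Uw P o s a x k := by
  have hG0 := G_nonneg S ha x (S.b0 o s k)
  have hG1 := G_nonneg S ha x (S.b1 o s k)
  have hnu := nuT_nonneg S o s a x k
  have hU := Uw_nonneg (P := P) o s a x k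
  have htau := P.tau_le s hs1 hs
  have htau0 := R.tau_nonneg s
  by_cases hI : P.act o s a x k ∧ ¬ AA P o s a x k
  swap
  · rw [ind_false hI]; nlinarith
  rw [ind_true hI, one_mul]
  obtain ⟨hact, hnA⟩ := hI
  have hm1 := m_le (R := R) hs ha o x k
  have hm2 := nuT_le (R := R) hs ha o x k
  have hlow : 3 / 8 * P.th s ≤ R.m o s a x k := P.act_low o s a x k hs1 hs hact
  by_cases hT : Tight R o s a x k
  swap
  · unfold Tight at hT
    push Not at hT
    nlinarith
  have hT' := hT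
  unfold Tight at hT'
  have hUp : ¬ Upst P o s a x k := fun h => hnA ⟨hact, hT, h⟩
  have hex : 3 / 10 * P.th s ≤ S.nuT o s a x k ∧ ∃ t ∈ Icc (s + 2) S.smax,
      S.nuT o t (a / 2 ^ (t - s)) x (k / 16 ^ (t - s)) ≤ 4 * P.c t := by
    refine ⟨by nlinarith [P.th_pos s], ?_⟩
    unfold Upst at hUp
    push Not at hUp
    exact hUp
  have hU' : Uw P o s a x k = S.nuT o s a x k := by
    unfold Uw; rw [ind_true hex, one_mul]
  rw [hU']
  nlinarith

/-- a box of `AA` has mass at most `4 c` -/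
theorem AA_nuT_le {s a : ℕ} (hs1 : 1 ≤ s) (hs : s ≤ S.smax) (ha : a < S.na s) {o : ℕ} {x : X}
    {k : ℕ} (h : AA P o s a x k) : S.nuT o s a x k ≤ 4 * P.c s := by
  obtain ⟨hact, hT, _⟩ := h
  unfold Tight at hT
  have hG0 := G_nonneg S ha x (S.b0 o s k)
  have hm2 := nuT_le (R := R) hs ha o x k
  have h1 := P.act_up o s a x k hs1 hs hact
  linarith

/-- multiplicity two for the family `AA` -/
theorem AA_mult {s t : ℕ} (hst : s + 2 ≤ t) (ht : t ≤ S.smax) {a : ℕ}
    (ha : a < S.na s) {o : ℕ} {x : X} {k : ℕ} (h : AA P o s a x k) :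
    ¬ AA P o t (a / 2 ^ (t - s)) x (k / 16 ^ (t - s)) := by
  intro h'
  have h1 : 4 * P.c t < S.nuT o t (a / 2 ^ (t - s)) x (k / 16 ^ (t - s)) :=
    h.2.2 t (by simp only [mem_Icc]; omega)
  have ha' : a / 2 ^ (t - s) < S.na t := by
    rw [Nat.div_lt_iff_lt_mul (by positivity)]
    have h2 := na_mul S ht
    have h3 := na_mul S (s := s) (by omega)
    have h4 : (2 : ℕ) ^ t = 2 ^ (t - s) * 2 ^ s := by rw [← pow_add]; congr 1; omega
    have h5 : S.na s * 2 ^ s = (S.na t * 2 ^ (t - s)) * 2 ^ s := by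
      rw [h3, mul_assoc, ← h4, h2]
    have h6 := Nat.eq_of_mul_eq_mul_right (by positivity) h5
    rw [← h6]; exact ha
  have h2 := AA_nuT_le (by omega) ht ha' h'
  linarith

/-- measurability of `AA` -/
theorem AA_meas {s a : ℕ} {o : ℕ} {x y : X} {k : ℕ}
    (hxy : S.q ((a + 1) * 2 ^ s) x = S.q ((a + 1) * 2 ^ s) y) :
    AA P o s a x k ↔ AA P o s a y k := by
  have hV : ∀ b, S.V s a x b = S.V s a y b := fun b => avg_congr_pt hxy _
  have he : ∀ t, s ≤ t → S.e ((a / 2 ^ (t - s) + 1) * 2 ^ t) x =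
      S.e ((a / 2 ^ (t - s) + 1) * 2 ^ t) y := by
    intro t ht
    refine S.meas _ _ _ (nest_le S ?_ hxy)
    have h4 : (2 : ℕ) ^ t = 2 ^ (t - s) * 2 ^ s := by rw [← pow_add]; congr 1; omega
    have h1 : a + 1 ≤ (a / 2 ^ (t - s) + 1) * 2 ^ (t - s) := by
      have := Nat.lt_div_mul_add (a := a) (b := 2 ^ (t - s)) (by positivity)
      rw [add_mul, one_mul]; omega
    calc (a + 1) * 2 ^ s ≤ ((a / 2 ^ (t - s) + 1) * 2 ^ (t - s)) * 2 ^ s :=
          Nat.mul_le_mul_right _ h1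
      _ = (a / 2 ^ (t - s) + 1) * 2 ^ t := by rw [h4]; ring
  have he0 : S.e ((a + 1) * 2 ^ s) x = S.e ((a + 1) * 2 ^ s) y := S.meas _ _ _ hxy
  have hnu : ∀ t, s ≤ t → S.nuT o t (a / 2 ^ (t - s)) x (k / 16 ^ (t - s)) =
      S.nuT o t (a / 2 ^ (t - s)) y (k / 16 ^ (t - s)) := by
    intro t ht
    unfold Sys.nuT Sys.nu
    rw [he t ht]
  have hnu0 : S.nuT o s a x k = S.nuT o s a y k := by
    unfold Sys.nuT Sys.nu; rw [he0]
  have hG : ∀ b, S.G s a x b = S.G s a y b := by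
    intro b; unfold Sys.G; rw [hV, he0]
  unfold AA Tight Upst
  rw [hG, hG, hnu0, P.act_meas o s a x y k hxy]
  refine and_congr_right fun _ => and_congr_right fun _ => ?_
  refine forall_congr' fun t => forall_congr' fun ht => ?_
  simp only [mem_Icc] at ht
  rw [hnu t (by omega)]

end pointwise

end Vale.Agent.P315.H295
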