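import Vale.Agent.P315.H295.Step11

/-! P315, Part A: STEP 11 for one offset.  helper295. -/

set_option autoImplicit false

open Finset

namespace Vale.Agent.P315.H295

open Vale.Agent.P315.Acc

variable {X : Type} [Fintype X] [Nonempty X]

section

variable {S : Sys X} {R : Mach S} {P : Thr S R}

theorem lhs_nonneg (C7 : ℝ) (good : ℕ → ℕ → X → Prop) (o s a : ℕ) (x : X) (k : ℕ) :
    0 ≤ R.lhs C7 good o s a x k := by
  unfold Mach.lhs
  refine Finset.sum_nonneg fun i _ => av_nonneg S (fun y => ?_) x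
  exact mul_nonneg (sub_nonneg.2 (S.anti _ y (Nat.le_add_right _ _))) (ind_nonneg _)

variable (P)

/-- **STEP 11**, pointwise in the leaf, for one top. -/
theorem step11_pt {C7 : ℝ} {L : ℕ → ℝ} {good : ℕ → ℕ → X → Prop}
    {Cap : ℕ → ℕ → ℕ → X → ℝ} {Fail : ℕ → ℕ → ℕ → X → Prop}
    {edge : ℕ → ℕ → ℕ → X → ℕ → ℝ} {o s a : ℕ}
    (ha : a < S.na s)
    (hL : 0 ≤ L s) (hCap : ∀ x, 0 ≤ Cap o s a x)
    (hedge0 : ∀ x k, 0 ≤ edge o s a x k)
    (hb : H3bU R P.act C7 L good Cap Fail o s a)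
    (hedge : ∀ x, ∀ k < S.nb s, 2 ^ s * S.av ((a + 1) * 2 ^ s) (fun y => S.nuU o s a y k *
      ind (S.nuU o s a y k ≤ C7 * R.m o s a x k ∧ good s a y)) x ≤
        R.lhs C7 good o s a x k + 2 ^ s * edge o s a x k) (x : X) :
    2 ^ s * ∑ k ∈ range (S.nb s), ind (AA P o s a x k) * S.rho o s a x k ≤
      2 * ∑ k ∈ range (S.nb s), ind (AA P o s a x k) *
        ∑ i ∈ range (S.D s), S.G s a x (S.b0 o s k + i)
      + 2 ^ s * L s * ∑ k ∈ range (S.nb s),
          ind (P.act o s a x k ∧ ¬ AA P o s a x k) * R.m o s a x k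
      + Cap o s a x
      + 2 ^ s * ind (Fail o s a x)
      + 2 ^ s * ∑ k ∈ range (S.nb s), ind (AA P o s a x k) * S.av ((a + 1) * 2 ^ s)
          (fun y => S.nuU o s a y k * ind (¬ S.nuU o s a y k ≤ C7 * R.m o s a x k)) x
      + 2 ^ s * ∑ k ∈ range (S.nb s), S.av ((a + 1) * 2 ^ s)
          (fun y => S.nuU o s a y k * ind (¬ good s a y)) x
      + 2 ^ s * ∑ k ∈ range (S.nb s), edge o s a x k := by
  classical
  have h2s : (0 : ℝ) < 2 ^ s := by positivity
  have hSG : ∀ k, 0 ≤ ∑ i ∈ range (S.D s), S.G s a x (S.b0 o s k + i) :=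
    fun k => Finset.sum_nonneg fun i _ => G_nonneg S ha x _
  have n1 : 0 ≤ ∑ k ∈ range (S.nb s), ind (AA P o s a x k) *
      ∑ i ∈ range (S.D s), S.G s a x (S.b0 o s k + i) :=
    Finset.sum_nonneg fun k _ => mul_nonneg (ind_nonneg _) (hSG k)
  have n2 : 0 ≤ ∑ k ∈ range (S.nb s),
      ind (P.act o s a x k ∧ ¬ AA P o s a x k) * R.m o s a x k :=
    Finset.sum_nonneg fun k _ => mul_nonneg (ind_nonneg _) (m_nonneg _ _ _ _ _)
  have n3 : 0 ≤ Cap o s a x := hCap x
  have n4 : 0 ≤ ∑ k ∈ range (S.nb s), ind (AA P o s a x k) * S.av ((a + 1) * 2 ^ s)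
          (fun y => S.nuU o s a y k * ind (¬ S.nuU o s a y k ≤ C7 * R.m o s a x k)) x :=
    Finset.sum_nonneg fun k _ => mul_nonneg (ind_nonneg _)
      (av_nonneg S (fun y => mul_nonneg (nuU_nonneg S _ _ _ _ _) (ind_nonneg _)) x)
  have n5 : 0 ≤ ∑ k ∈ range (S.nb s), S.av ((a + 1) * 2 ^ s)
          (fun y => S.nuU o s a y k * ind (¬ good s a y)) x :=
    Finset.sum_nonneg fun k _ =>
      (av_nonneg S (fun y => mul_nonneg (nuU_nonneg S _ _ _ _ _) (ind_nonneg _)) x)
  have n6 : 0 ≤ ∑ k ∈ range (S.nb s), edge o s a x k :=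
    Finset.sum_nonneg fun k _ => hedge0 x k
  by_cases hF : Fail o s a x
  · -- failure
    rw [ind_true hF, mul_one]
    have h1 : ∑ k ∈ range (S.nb s), ind (AA P o s a x k) * S.rho o s a x k ≤ 1 := by
      refine le_trans (Finset.sum_le_sum fun k _ => ?_) (sum_rho_le_one S o s a x (S.nb s))
      exact mul_le_of_le_one_left (rho_nonneg S _ _ _ _ _) (ind_le_one _)
    have h2 : 2 ^ s * ∑ k ∈ range (S.nb s), ind (AA P o s a x k) * S.rho o s a x k ≤ 2 ^ s := by
      calc _ ≤ 2 ^ s * (1 : ℝ) := mul_le_mul_of_nonneg_left h1 h2s.le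
        _ = 2 ^ s := mul_one _
    have h3 : 0 ≤ 2 ^ s * L s * ∑ k ∈ range (S.nb s),
        ind (P.act o s a x k ∧ ¬ AA P o s a x k) * R.m o s a x k :=
      mul_nonneg (mul_nonneg h2s.le hL) n2
    have := mul_nonneg h2s.le n4
    have := mul_nonneg h2s.le n5
    have := mul_nonneg h2s.le n6
    linarith
  · rw [ind_false hF, mul_zero]
    -- decomposition of `rho`
    have hdec : ∀ k ∈ range (S.nb s), 2 ^ s * (ind (AA P o s a x k) * S.rho o s a x k) ≤
        ind (AA P o s a x k) * R.lhs C7 good o s a x k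
        + 2 ^ s * (ind (AA P o s a x k) * S.av ((a + 1) * 2 ^ s)
          (fun y => S.nuU o s a y k * ind (¬ S.nuU o s a y k ≤ C7 * R.m o s a x k)) x)
        + 2 ^ s * S.av ((a + 1) * 2 ^ s)
          (fun y => S.nuU o s a y k * ind (¬ good s a y)) x
        + 2 ^ s * edge o s a x k := by
      intro k hk
      have hk' := Finset.mem_range.1 hk
      have h1 : S.rho o s a x k ≤ S.av ((a + 1) * 2 ^ s) (fun y => S.nuU o s a y k *
          ind (S.nuU o s a y k ≤ C7 * R.m o s a x k ∧ good s a y)) x +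
          (S.av ((a + 1) * 2 ^ s)
          (fun y => S.nuU o s a y k * ind (¬ S.nuU o s a y k ≤ C7 * R.m o s a x k)) x +
          S.av ((a + 1) * 2 ^ s) (fun y => S.nuU o s a y k * ind (¬ good s a y)) x) := by
        rw [rho_eq_av, ← av_add, ← av_add]
        refine av_mono S (fun y => ?_) x
        have hn := nuU_nonneg S o s a y k
        by_cases h1 : S.nuU o s a y k ≤ C7 * R.m o s a x k
        · by_cases h2 : good s a y
          · rw [ind_true ⟨h1, h2⟩, ind_false (not_not.2 h1), ind_false (not_not.2 h2)]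
            linarith
          · rw [ind_true h2]
            have := mul_nonneg hn (ind_nonneg (S.nuU o s a y k ≤ C7 * R.m o s a x k ∧ good s a y))
            have := mul_nonneg hn (ind_nonneg (¬ S.nuU o s a y k ≤ C7 * R.m o s a x k))
            linarith
        · rw [ind_true h1]
          have := mul_nonneg hn (ind_nonneg (S.nuU o s a y k ≤ C7 * R.m o s a x k ∧ good s a y))
          have := mul_nonneg hn (ind_nonneg (¬ good s a y))
          linarith
      have h2 := hedge x k hk'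
      have h3 : 0 ≤ S.av ((a + 1) * 2 ^ s)
          (fun y => S.nuU o s a y k * ind (¬ good s a y)) x :=
        av_nonneg S (fun y => mul_nonneg (nuU_nonneg S _ _ _ _ _) (ind_nonneg _)) x
      have h4 := hedge0 x k
      by_cases hA : AA P o s a x k
      · rw [ind_true hA, one_mul, one_mul, one_mul]
        have := mul_le_mul_of_nonneg_left h1 h2s.le
        linarith
      · rw [ind_false hA, zero_mul, zero_mul, zero_mul, mul_zero]
        have := mul_nonneg h2s.le h3
        have := mul_nonneg h2s.le h4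
        linarith
    have hsum := Finset.sum_le_sum hdec
    rw [Finset.sum_add_distrib, Finset.sum_add_distrib, Finset.sum_add_distrib,
      ← Finset.mul_sum, ← Finset.mul_sum, ← Finset.mul_sum, ← Finset.mul_sum] at hsum
    -- the machine inequality
    have h1 := hb x hF ((range (S.nb s)).filter (fun k => AA P o s a x k))
      (fun k hk => by
        simp only [mem_filter, mem_range] at hk
        exact ⟨hk.1, hk.2.1⟩)
    have e1 : ∀ F : ℕ → ℝ, ∑ k ∈ (range (S.nb s)).filter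
        (fun k => AA P o s a x k), F k =
        ∑ k ∈ range (S.nb s), ind (AA P o s a x k) * F k := by
      intro F
      rw [Finset.sum_filter]
      refine Finset.sum_congr rfl fun k _ => ?_
      unfold ind
      split_ifs <;> simp
    have e2 : ∑ k ∈ (range (S.nb s)).filter (fun k => k ∉ (range (S.nb s)).filter
        (fun k => AA P o s a x k)),
        ind (P.act o s a x k) * R.m o s a x k =
        ∑ k ∈ range (S.nb s), ind (P.act o s a x k ∧ ¬ AA P o s a x k) * R.m o s a x k := by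
      rw [Finset.sum_filter]
      refine Finset.sum_congr rfl fun k hk => ?_
      by_cases hA : AA P o s a x k
      · rw [if_neg, ind_false (fun h : P.act o s a x k ∧ ¬ AA P o s a x k => h.2 hA), zero_mul]
        intro h
        exact h (Finset.mem_filter.2 ⟨hk, hA⟩)
      · rw [if_pos (fun h => hA (Finset.mem_filter.1 h).2)]
        rw [ind_congr (p := P.act o s a x k) (r := P.act o s a x k ∧ ¬ AA P o s a x k)
          ⟨fun h => ⟨h, hA⟩, fun h => h.1⟩]
    rw [e1, e1, e2] at h1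
    linarith

end

/-- total mass of the bad units -/
theorem bad_le (S : Sys X) (good : ℕ → ℕ → X → Prop) (o s : ℕ) :
    TT S s (fun a x k => S.av ((a + 1) * 2 ^ s)
      (fun y => S.nuU o s a y k * ind (¬ good s a y)) x) ≤
    TA S s (fun a x => ind (¬ good s a x)) := by
  unfold TT TA
  refine Finset.sum_le_sum fun a _ => ?_
  have h1 : S.E (fun x => ∑ k ∈ range (S.nb s), S.av ((a + 1) * 2 ^ s)
      (fun y => S.nuU o s a y k * ind (¬ good s a y)) x) =
      S.E (fun x => ∑ k ∈ range (S.nb s), S.nuU o s a x k * ind (¬ good s a x)) := by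
    rw [E_sum, E_sum]
    refine Finset.sum_congr rfl fun k _ => ?_
    exact EE_avg S.hw _ _
  rw [h1]
  refine E_mono S fun x => ?_
  rw [← Finset.sum_mul]
  refine mul_le_of_le_one_left (ind_nonneg _) ?_
  have h2 : ∀ N, ∑ k ∈ range N, S.nuU o s a x k =
      S.e (a * 2 ^ s) x (S.b0 o s 0) - S.e (a * 2 ^ s) x (S.b0 o s N) := by
    intro N
    induction N with
    | zero => simp
    | succ N ih =>
      rw [Finset.sum_range_succ, ih]
      have : S.b0 o s (N + 1) = S.b1 o s N := rfl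
      rw [this]; unfold Sys.nuU Sys.nu; ring
  rw [h2]
  have := S.le_one (a * 2 ^ s) x (S.b0 o s 0)
  have := S.nonneg (a * 2 ^ s) x (S.b0 o s (S.nb s))
  linarith

section

variable {S : Sys X} {R : Mach S} (P : Thr S R)

/-- gains at the first indices of the blocks -/
noncomputable def GB0 (S : Sys X) (o s : ℕ) : ℝ := TT S s (fun a x k => S.G s a x (S.b0 o s k))

/-- gains at the ends of the blocks -/
noncomputable def GB1 (S : Sys X) (o s : ℕ) : ℝ := TT S s (fun a x k => S.G s a x (S.b1 o s k))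

/-- **STEP 4, 5, 7, 8, 11** for one offset and one scale. -/
theorem step11_scale {C7 : ℝ} {L : ℕ → ℝ} {good : ℕ → ℕ → X → Prop}
    {Cap : ℕ → ℕ → ℕ → X → ℝ} {Fail : ℕ → ℕ → ℕ → X → Prop}
    {edge : ℕ → ℕ → ℕ → X → ℕ → ℝ} {o s : ℕ} (hs1 : 1 ≤ s) (hs : s ≤ S.smax)
    (hL : 0 ≤ L s) (hCap : ∀ a < S.na s, ∀ x, 0 ≤ Cap o s a x)
    (hedge0 : ∀ a < S.na s, ∀ x k, 0 ≤ edge o s a x k)
    (hb : ∀ a < S.na s, H3bU R P.act C7 L good Cap Fail o s a)
    (hedge : ∀ a < S.na s, ∀ x, ∀ k < S.nb s, 2 ^ s * S.av ((a + 1) * 2 ^ s)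
      (fun y => S.nuU o s a y k *
        ind (S.nuU o s a y k ≤ C7 * R.m o s a x k ∧ good s a y)) x ≤
        R.lhs C7 good o s a x k + 2 ^ s * edge o s a x k) :
    TT S s (fun a x k => 2 ^ s * (ind (P.th s ≤ S.nuT o s a x k ∧ S.nuT o s a x k ≤ P.th' s) *
        (S.rho o s a x k + S.G s a x (S.b1 o s k)))) ≤
      2 * TT S s (fun a x k => ind (AA P o s a x k) *
        ∑ i ∈ range (S.D s), S.G s a x (S.b0 o s k + i))
      + 2 ^ s * (1 + L s) * (6 * (GB0 S o s + GB1 S o s)
          + 5 / 4 * TT S s (fun a x k => Uw P o s a x k))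
      + TA S s (fun a x => Cap o s a x)
      + 2 ^ s * TA S s (fun a x => ind (Fail o s a x))
      + 2 ^ s * TT S s (fun a x k => ind (AA P o s a x k) * S.av ((a + 1) * 2 ^ s)
          (fun y => S.nuU o s a y k * ind (¬ S.nuU o s a y k ≤ C7 * R.m o s a x k)) x)
      + 2 ^ s * TA S s (fun a x => ind (¬ good s a x))
      + 2 ^ s * TT S s (fun a x k => edge o s a x k) := by
  have h2s : (0 : ℝ) < 2 ^ s := by positivity
  -- steps 4, 5
  have h1 := TT_mono S s (F := fun a x k =>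
      ind (P.th s ≤ S.nuT o s a x k ∧ S.nuT o s a x k ≤ P.th' s) *
        (S.rho o s a x k + S.G s a x (S.b1 o s k)))
      (H := fun a x k => (ind (AA P o s a x k) * S.rho o s a x k
      + 6 * (S.G s a x (S.b0 o s k) + S.G s a x (S.b1 o s k))) + 5 / 4 * Uw P o s a x k)
      (fun a ha x k _ => step45 hs1 hs ha o x k)
  rw [TT_add, TT_add, TT_mul, TT_mul, TT_add] at h1
  -- charges
  have h2 := TT_mono S s (F := fun a x k =>
      ind (P.act o s a x k ∧ ¬ AA P o s a x k) * R.m o s a x k)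
      (H := fun a x k => 6 * (S.G s a x (S.b0 o s k) + S.G s a x (S.b1 o s k))
        + 5 / 4 * Uw P o s a x k)
      (fun a ha x k _ => step78 hs1 hs ha o x k)
  rw [TT_add, TT_mul, TT_mul, TT_add] at h2
  -- step 11
  have h3 := TA_mono S s (fun a ha x => step11_pt P ha hL (hCap a ha) (hedge0 a ha)
    (hb a ha) (hedge a ha) x)
  rw [TA_add, TA_add, TA_add, TA_add, TA_add, TA_add, TA_mul, TA_mul, TA_mul, TA_mul, TA_mul,
    TA_mul, TA_mul] at h3
  have h4 := bad_le S good o s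
  have h5 : 2 ^ s * TA S s (fun a x => ∑ k ∈ range (S.nb s), S.av ((a + 1) * 2 ^ s)
      (fun y => S.nuU o s a y k * ind (¬ good s a y)) x) ≤
      2 ^ s * TA S s (fun a x => ind (¬ good s a x)) := mul_le_mul_of_nonneg_left h4 h2s.le
  have h6 := mul_le_mul_of_nonneg_left h1 h2s.le
  have h7 := mul_le_mul_of_nonneg_left h2 (mul_nonneg h2s.le hL)
  rw [TT_mul]
  simp only [GB0, GB1]
  simp only [TT_eq_TA] at h6 h7 ⊢
  linarith

/-- **STEP 4-11** for one offset, all scales: the sum over the scales with multiplicity two. -/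
theorem step11_all {C7 : ℝ} {L : ℕ → ℝ} {good : ℕ → ℕ → X → Prop}
    {Cap : ℕ → ℕ → ℕ → X → ℝ} {Fail : ℕ → ℕ → ℕ → X → Prop}
    {edge : ℕ → ℕ → ℕ → X → ℕ → ℝ} {o : ℕ}
    (hL : ∀ s, 0 ≤ L s)
    (hCap : ∀ s a x, 0 ≤ Cap o s a x)
    (hedge0 : ∀ s a x k, 0 ≤ edge o s a x k)
    (hb : ∀ s ∈ Icc 1 S.smax, ∀ a < S.na s, H3bU R P.act C7 L good Cap Fail o s a)
    (hedge : ∀ s ∈ Icc 1 S.smax, ∀ a < S.na s, ∀ x, ∀ k < S.nb s,
      2 ^ s * S.av ((a + 1) * 2 ^ s) (fun y => S.nuU o s a y k *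
        ind (S.nuU o s a y k ≤ C7 * R.m o s a x k ∧ good s a y)) x ≤
        R.lhs C7 good o s a x k + 2 ^ s * edge o s a x k) :
    ∑ s ∈ Icc 1 S.smax, TT S s (fun a x k => 2 ^ s *
        (ind (P.th s ≤ S.nuT o s a x k ∧ S.nuT o s a x k ≤ P.th' s) *
        (S.rho o s a x k + S.G s a x (S.b1 o s k)))) ≤
      4 * S.Gam + ∑ s ∈ Icc 1 S.smax,
      (2 ^ s * (1 + L s) * (6 * (GB0 S o s + GB1 S o s)
          + 5 / 4 * TT S s (fun a x k => Uw P o s a x k))
      + TA S s (fun a x => Cap o s a x)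
      + 2 ^ s * TA S s (fun a x => ind (Fail o s a x))
      + 2 ^ s * TT S s (fun a x k => ind (AA P o s a x k) * S.av ((a + 1) * 2 ^ s)
          (fun y => S.nuU o s a y k * ind (¬ S.nuU o s a y k ≤ C7 * R.m o s a x k)) x)
      + 2 ^ s * TA S s (fun a x => ind (¬ good s a x))
      + 2 ^ s * TT S s (fun a x k => edge o s a x k)) := by
  have h6 := step6 S o (Icc 1 S.smax) (fun s hs => (mem_Icc.1 hs).2)
    (fun s a x k => AA P o s a x k)
    (fun s _ a x y k hxy => AA_meas hxy)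
    (fun s _ t ht hst a ha x k _ h => AA_mult hst (mem_Icc.1 ht).2 ha h)
  have h1 := Finset.sum_le_sum fun s (hs : s ∈ Icc 1 S.smax) =>
    step11_scale P (mem_Icc.1 hs).1 (mem_Icc.1 hs).2 (hL s)
      (fun a _ x => hCap s a x) (fun a _ x k => hedge0 s a x k) (hb s hs) (hedge s hs)
  have h2 : ∑ s ∈ Icc 1 S.smax, 2 * TT S s (fun a x k => ind (AA P o s a x k) *
        ∑ i ∈ range (S.D s), S.G s a x (S.b0 o s k + i)) ≤ 4 * S.Gam := by
    rw [← Finset.mul_sum]
    have : ∑ s ∈ Icc 1 S.smax, TT S s (fun a x k => ind (AA P o s a x k) *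
        ∑ i ∈ range (S.D s), S.G s a x (S.b0 o s k + i)) ≤ 2 * S.Gam := h6
    linarith
  refine h1.trans ?_
  simp only [add_assoc] at h1 ⊢
  rw [Finset.sum_add_distrib]
  linarith

end

end Vale.Agent.P315.H295
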