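/-
P315, Part A of PROOF.md (helper476), STEP 4 and type bookkeeping.  helper295.
Plain Mathlib.  Abstract frame: a set `X` of leaves, node ids `q j x`, a linear
positive functional `EE`, conditional expectations `avg j` (only the pull-out
property is used), so that weights on the leaves are allowed.
-/
import Mathlib

namespace P315.H295

open Finset

/-- Conditional expectations on a finite nested tree, abstractly. -/
structure CE (X : Type*) where
  q : ℕ → X → ℕ
  nest : ∀ j x y, q j x = q j y → q (j + 1) x = q (j + 1) y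
  EE : (X → ℝ) → ℝ
  add : ∀ f g : X → ℝ, EE (fun x => f x + g x) = EE f + EE g
  smul : ∀ (c : ℝ) (f : X → ℝ), EE (fun x => c * f x) = c * EE f
  mono : ∀ f g : X → ℝ, (∀ x, f x ≤ g x) → EE f ≤ EE g
  avg : ℕ → (X → ℝ) → X → ℝ
  pull : ∀ j (h f : X → ℝ), (∀ x y, q j x = q j y → h x = h y) →
    EE (fun x => h x * avg j f x) = EE (fun x => h x * f x)

namespace CE

variable {X : Type*} (C : CE X)

theorem nest_le {i j : ℕ} (h : i ≤ j) {x y : X} (hxy : C.q i x = C.q i y) :
    C.q j x = C.q j y := by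
  induction j, h using Nat.le_induction with
  | base => exact hxy
  | succ k _ ih => exact C.nest _ _ _ ih

/-- measurable with respect to level `j` -/
def Meas (j : ℕ) (h : X → ℝ) : Prop := ∀ x y, C.q j x = C.q j y → h x = h y

theorem Meas.mono {C : CE X} {i j : ℕ} (hij : i ≤ j) {h : X → ℝ} (hh : C.Meas j h) :
    C.Meas i h := fun _ _ hxy => hh _ _ (C.nest_le hij hxy)

theorem zero : C.EE (fun _ => 0) = 0 := by
  have := C.smul 0 (fun _ => 0)
  simpa using this

theorem neg (f : X → ℝ) : C.EE (fun x => - f x) = - C.EE f := by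
  have := C.smul (-1) f
  simpa using this

theorem sub (f g : X → ℝ) : C.EE (fun x => f x - g x) = C.EE f - C.EE g := by
  have := C.add f (fun x => - g x)
  rw [C.neg] at this
  simpa [sub_eq_add_neg] using this

theorem sum {ι : Type*} (s : Finset ι) (f : ι → X → ℝ) :
    C.EE (fun x => ∑ i ∈ s, f i x) = ∑ i ∈ s, C.EE (f i) := by
  classical
  induction s using Finset.induction_on with
  | empty => simpa using C.zero
  | insert a s ha ih =>
    simp only [Finset.sum_insert ha]
    rw [C.add, ih]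

theorem nonneg {f : X → ℝ} (hf : ∀ x, 0 ≤ f x) : 0 ≤ C.EE f := by
  have := C.mono (fun _ => 0) f hf
  rwa [C.zero] at this

/-- one-step gain -/
def gain (e : ℕ → X → ℕ → ℝ) (j : ℕ) (x : X) (b : ℕ) : ℝ :=
  C.avg (j + 1) (fun y => e j y b) x - e (j + 1) x b

/-- gain of scale `s` (step `2^s`) at the top of number `a` -/
def bigGain (e : ℕ → X → ℕ → ℝ) (s a : ℕ) (x : X) (b : ℕ) : ℝ :=
  C.avg ((a + 1) * 2 ^ s) (fun y => e (a * 2 ^ s) y b) x - e ((a + 1) * 2 ^ s) x b

theorem EE_gain (e : ℕ → X → ℕ → ℝ) (j : ℕ) (b : ℕ) {h : X → ℝ} (hh : C.Meas (j + 1) h) :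
    C.EE (fun x => h x * C.gain e j x b) =
      C.EE (fun x => h x * e j x b) - C.EE (fun x => h x * e (j + 1) x b) := by
  have h1 : (fun x => h x * C.gain e j x b) =
      fun x => h x * C.avg (j + 1) (fun y => e j y b) x - h x * e (j + 1) x b := by
    funext x; simp only [gain]; ring
  rw [h1, C.sub, C.pull _ _ _ hh]

theorem EE_telescope (e : ℕ → X → ℕ → ℝ) (i m : ℕ) (b : ℕ) {h : X → ℝ} (hh : C.Meas (i + m) h) :
    ∑ r ∈ range m, C.EE (fun x => h x * C.gain e (i + r) x b) =
      C.EE (fun x => h x * e i x b) - C.EE (fun x => h x * e (i + m) x b) := by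
  induction m with
  | zero => simp
  | succ m ih =>
    rw [Finset.sum_range_succ, ih (hh.mono (by omega)), C.EE_gain e (i + m) b (hh.mono (by omega))]
    have : i + (m + 1) = i + m + 1 := by ring
    rw [this]; ring

theorem EE_bigGain (e : ℕ → X → ℕ → ℝ) (s a : ℕ) (b : ℕ) {h : X → ℝ}
    (hh : C.Meas ((a + 1) * 2 ^ s) h) :
    C.EE (fun x => h x * C.bigGain e s a x b) =
      ∑ r ∈ range (2 ^ s), C.EE (fun x => h x * C.gain e (a * 2 ^ s + r) x b) := by
  have hlev : a * 2 ^ s + 2 ^ s = (a + 1) * 2 ^ s := by ring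
  rw [C.EE_telescope e (a * 2 ^ s) (2 ^ s) b (by rw [hlev]; exact hh), hlev]
  have h1 : (fun x => h x * C.bigGain e s a x b) =
      fun x => h x * C.avg ((a + 1) * 2 ^ s) (fun y => e (a * 2 ^ s) y b) x
        - h x * e ((a + 1) * 2 ^ s) x b := by
    funext x; simp only [bigGain]; ring
  rw [h1, C.sub, C.pull _ _ _ hh]

end CE

/-- regrouping of `range (m * P)` into `m` groups of length `P` -/
theorem sum_group {P : ℕ} (hP : 0 < P) (m : ℕ) (F : ℕ → ℕ → ℝ) :
    ∑ a ∈ range m, ∑ r ∈ range P, F a (a * P + r) = ∑ j ∈ range (m * P), F (j / P) j := by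
  induction m with
  | zero => simp
  | succ m ih =>
    rw [Finset.sum_range_succ, ih, Nat.succ_mul, Finset.sum_range_add]
    congr 1
    refine Finset.sum_congr rfl fun r hr => ?_
    have hr' : r < P := Finset.mem_range.1 hr
    have : (m * P + r) / P = m := by
      rw [mul_comm, Nat.mul_add_div hP, Nat.div_eq_of_lt hr', add_zero]
    rw [this]

end P315.H295
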