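/-
P315, Part A of PROOF.md (helper476), types and STEP 4.  helper295.
-/
import Vale.Agent.P315.H295.Types

namespace P315.H295

open Finset

/-- grids: `blk s b` = number of the block of scale `s` containing the index `b`,
`lo s k` an index in the block `k`. -/
structure Grid where
  blk : ℕ → ℕ → ℕ
  lo : ℕ → ℕ → ℕ
  blk_lo : ∀ s k, blk s (lo s k) = k
  nest : ∀ s b b', blk s b = blk s b' → blk (s + 1) b = blk (s + 1) b'

theorem Grid.nest_le (Gr : Grid) {s t : ℕ} (h : s ≤ t) {b b' : ℕ} (hb : Gr.blk s b = Gr.blk s b') :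
    Gr.blk t b = Gr.blk t b' := by
  induction t, h using Nat.le_induction with
  | base => exact hb
  | succ k _ ih => exact Gr.nest _ _ _ ih

/-- lightness of (scale, top number, leaf, block), constant on the leaves of the top -/
structure Light {X : Type*} (C : CE X) where
  light : ℕ → ℕ → X → ℕ → Prop
  meas : ∀ t a x y k, C.q ((a + 1) * 2 ^ t) x = C.q ((a + 1) * 2 ^ t) y →
    (light t a x k ↔ light t a y k)

variable {X : Type*} {C : CE X}

/-- `(j,x,b)` has type `t` -/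
def isTy (Gr : Grid) (L : Light C) (S t j : ℕ) (x : X) (b : ℕ) : Prop :=
  t ≤ S ∧ L.light t (j / 2 ^ t) x (Gr.blk t b) ∧
    ∀ t', t < t' → t' ≤ S → ¬ L.light t' (j / 2 ^ t') x (Gr.blk t' b)

/-- `(j,x,b)` has type `-1` -/
def isHv (Gr : Grid) (L : Light C) (S j : ℕ) (x : X) (b : ℕ) : Prop :=
  ∀ t', t' ≤ S → ¬ L.light t' (j / 2 ^ t') x (Gr.blk t' b)

theorem isTy_unique {Gr : Grid} {L : Light C} {S t t' j : ℕ} {x : X} {b : ℕ}
    (h : isTy Gr L S t j x b) (h' : isTy Gr L S t' j x b) : t = t' := by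
  rcases lt_trichotomy t t' with hlt | heq | hgt
  · exact absurd h'.2.1 (h.2.2 _ hlt h'.1)
  · exact heq
  · exact absurd h.2.1 (h'.2.2 _ hgt h.1)

/-- every triple has a type in `{-1,…,S}` -/
theorem isHv_or_isTy (Gr : Grid) (L : Light C) (S j : ℕ) (x : X) (b : ℕ) :
    isHv Gr L S j x b ∨ ∃ t, isTy Gr L S t j x b := by
  classical
  by_cases h : isHv Gr L S j x b
  · exact Or.inl h
  · right
    simp only [isHv, not_forall, not_not, exists_prop] at h
    obtain ⟨t0, ht0, hl0⟩ := h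
    have hex : ∃ t, t ∈ (range (S + 1)).filter
        (fun t => L.light t (j / 2 ^ t) x (Gr.blk t b)) :=
      ⟨t0, by simp [Nat.lt_succ_of_le ht0, hl0]⟩
    obtain ⟨t, ht, hmax⟩ := Finset.exists_max_image _ (fun t => t) hex
    simp only [mem_filter, mem_range] at ht hmax
    refine ⟨t, by omega, ht.2, fun t' htt' ht'S hl => ?_⟩
    have := hmax t' ⟨by omega, hl⟩
    omega

theorem isTy_not_isHv {Gr : Grid} {L : Light C} {S t j : ℕ} {x : X} {b : ℕ}
    (h : isTy Gr L S t j x b) : ¬ isHv Gr L S j x b := fun h' => h' t h.1 h.2.1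

theorem div_pow_eq {s t j j' : ℕ} (hst : s ≤ t) (h : j / 2 ^ s = j' / 2 ^ s) :
    j / 2 ^ t = j' / 2 ^ t := by
  obtain ⟨d, rfl⟩ := Nat.exists_eq_add_of_le hst
  rw [pow_add, ← Nat.div_div_eq_div_mul, ← Nat.div_div_eq_div_mul, h]

theorem top_mono {s t : ℕ} (hst : s ≤ t) (j : ℕ) :
    (j / 2 ^ s + 1) * 2 ^ s ≤ (j / 2 ^ t + 1) * 2 ^ t := by
  obtain ⟨d, rfl⟩ := Nat.exists_eq_add_of_le hst
  rw [pow_add, ← Nat.div_div_eq_div_mul]
  set a := j / 2 ^ s
  have h1 : a + 1 ≤ (a / 2 ^ d + 1) * 2 ^ d := by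
    have := Nat.lt_div_mul_add (a := a) (b := 2 ^ d) (by positivity)
    rw [add_mul, one_mul]; omega
  calc (a + 1) * 2 ^ s ≤ ((a / 2 ^ d + 1) * 2 ^ d) * 2 ^ s := Nat.mul_le_mul_right _ h1
    _ = (a / 2 ^ d + 1) * (2 ^ s * 2 ^ d) := by ring

/-- locality of the types -/
theorem isTy_loc {Gr : Grid} {L : Light C} {S s t : ℕ} (hst : s ≤ t) {j j' : ℕ} {x y : X}
    {b b' : ℕ} (hj : j / 2 ^ s = j' / 2 ^ s)
    (hx : C.q ((j / 2 ^ s + 1) * 2 ^ s) x = C.q ((j / 2 ^ s + 1) * 2 ^ s) y)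
    (hb : Gr.blk s b = Gr.blk s b') :
    isTy Gr L S t j x b ↔ isTy Gr L S t j' y b' := by
  have key : ∀ t', s ≤ t' → (L.light t' (j / 2 ^ t') x (Gr.blk t' b) ↔
      L.light t' (j' / 2 ^ t') y (Gr.blk t' b')) := by
    intro t' ht'
    rw [← div_pow_eq ht' hj, ← Gr.nest_le ht' hb]
    exact L.meas _ _ _ _ _ (C.nest_le (top_mono ht' j) hx)
  unfold isTy
  rw [key t hst]
  refine and_congr_right fun _ => and_congr_right fun _ => ?_
  refine forall_congr' fun t' => forall_congr' fun ht' => forall_congr' fun _ => ?_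
  rw [key t' (by omega)]

open Classical in
/-- indicator of the type -/
noncomputable def one (Gr : Grid) (L : Light C) (S t j : ℕ) (x : X) (b : ℕ) : ℝ :=
  if isTy Gr L S t j x b then 1 else 0

theorem one_nonneg (Gr : Grid) (L : Light C) (S t j : ℕ) (x : X) (b : ℕ) :
    0 ≤ one Gr L S t j x b := by unfold one; split_ifs <;> norm_num

theorem one_le_one (Gr : Grid) (L : Light C) (S t j : ℕ) (x : X) (b : ℕ) :
    one Gr L S t j x b ≤ 1 := by unfold one; split_ifs <;> norm_num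

theorem one_loc (Gr : Grid) (L : Light C) (S : ℕ) {s t : ℕ} (hst : s ≤ t) {j j' : ℕ} {x y : X}
    {b b' : ℕ} (hj : j / 2 ^ s = j' / 2 ^ s)
    (hx : C.q ((j / 2 ^ s + 1) * 2 ^ s) x = C.q ((j / 2 ^ s + 1) * 2 ^ s) y)
    (hb : Gr.blk s b = Gr.blk s b') : one Gr L S t j x b = one Gr L S t j' y b' := by
  have h := isTy_loc (Gr := Gr) (L := L) (S := S) hst hj hx hb
  unfold one
  by_cases h' : isTy Gr L S t j x b
  · rw [if_pos h', if_pos (h.1 h')]
  · rw [if_neg h', if_neg (fun h'' => h' (h.2 h''))]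

theorem sum_one_le (Gr : Grid) (L : Light C) (S j : ℕ) (x : X) (b : ℕ) (T : Finset ℕ) :
    ∑ t ∈ T, one Gr L S t j x b ≤ 1 := by
  classical
  by_cases h : ∃ t ∈ T, isTy Gr L S t j x b
  · obtain ⟨t, htT, ht⟩ := h
    rw [Finset.sum_eq_single t]
    · exact one_le_one _ _ _ _ _ _ _
    · intro t' _ hne
      unfold one
      rw [if_neg]
      exact fun h' => hne (isTy_unique h' ht)
    · intro h'; exact absurd htT h'
  · push Not at h
    rw [Finset.sum_eq_zero]
    · norm_num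
    · intro t ht
      unfold one
      rw [if_neg (h t ht)]

/-- total gain -/
noncomputable def Gam (C : CE X) (e : ℕ → X → ℕ → ℝ) (n N : ℕ) : ℝ :=
  ∑ j ∈ range n, C.EE (fun x => ∑ b ∈ range N, C.gain e j x b)

/-- gain on the triples of type `t` -/
noncomputable def GamT (C : CE X) (Gr : Grid) (L : Light C) (S t : ℕ) (e : ℕ → X → ℕ → ℝ)
    (n N : ℕ) : ℝ :=
  ∑ j ∈ range n, C.EE (fun x => ∑ b ∈ range N, one Gr L S t j x b * C.gain e j x b)

theorem GamT_nonneg (Gr : Grid) (L : Light C) (S t : ℕ) (e : ℕ → X → ℕ → ℝ) (n N : ℕ)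
    (hg : ∀ j < n, ∀ x, ∀ b < N, 0 ≤ C.gain e j x b) : 0 ≤ GamT C Gr L S t e n N := by
  refine Finset.sum_nonneg fun j hj => C.nonneg fun x => Finset.sum_nonneg fun b hb => ?_
  exact mul_nonneg (one_nonneg _ _ _ _ _ _ _)
    (hg j (Finset.mem_range.1 hj) x b (Finset.mem_range.1 hb))

theorem sum_GamT_le (Gr : Grid) (L : Light C) (S : ℕ) (e : ℕ → X → ℕ → ℝ) (n N : ℕ)
    (hg : ∀ j < n, ∀ x, ∀ b < N, 0 ≤ C.gain e j x b) (T : Finset ℕ) :
    ∑ t ∈ T, GamT C Gr L S t e n N ≤ Gam C e n N := by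
  unfold GamT Gam
  rw [Finset.sum_comm]
  refine Finset.sum_le_sum fun j hj => ?_
  rw [← C.sum]
  refine C.mono _ _ fun x => ?_
  rw [Finset.sum_comm]
  refine Finset.sum_le_sum fun b hb => ?_
  rw [← Finset.sum_mul]
  have h0 := hg j (Finset.mem_range.1 hj) x b (Finset.mem_range.1 hb)
  calc (∑ t ∈ T, one Gr L S t j x b) * C.gain e j x b ≤ 1 * C.gain e j x b :=
        mul_le_mul_of_nonneg_right (sum_one_le _ _ _ _ _ _ _) h0
    _ = C.gain e j x b := one_mul _

/-- the gains of scale `s ≤ t` on blocks of type `t` add up to `GamT t` for every `s` -/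
theorem sum_bigGain (Gr : Grid) (L : Light C) (S : ℕ) {s t : ℕ} (hst : s ≤ t)
    (e : ℕ → X → ℕ → ℝ) (m N : ℕ) :
    ∑ a ∈ range m, C.EE (fun x => ∑ b ∈ range N,
        one Gr L S t (a * 2 ^ s) x b * C.bigGain e s a x b) =
      GamT C Gr L S t e (m * 2 ^ s) N := by
  have hP : 0 < 2 ^ s := by positivity
  unfold GamT
  rw [← sum_group hP m (fun _ j => C.EE (fun x => ∑ b ∈ range N,
    one Gr L S t j x b * C.gain e j x b))]
  refine Finset.sum_congr rfl fun a _ => ?_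
  rw [C.sum]
  simp_rw [C.sum]
  rw [Finset.sum_comm]
  refine Finset.sum_congr rfl fun b _ => ?_
  have hdiv : ∀ r < 2 ^ s, (a * 2 ^ s + r) / 2 ^ s = a := by
    intro r hr
    rw [mul_comm, Nat.mul_add_div hP, Nat.div_eq_of_lt hr, add_zero]
  have hdiv0 : (a * 2 ^ s) / 2 ^ s = a := Nat.mul_div_cancel _ hP
  rw [C.EE_bigGain e s a b (h := fun x => one Gr L S t (a * 2 ^ s) x b)]
  · refine Finset.sum_congr rfl fun r hr => ?_
    have hr' : r < 2 ^ s := Finset.mem_range.1 hr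
    congr 1
    funext x
    rw [one_loc Gr L S hst (j := a * 2 ^ s) (j' := a * 2 ^ s + r) (x := x) (y := x)
      (b := b) (b' := b) (by rw [hdiv0, hdiv r hr']) rfl rfl]
  · intro x y hxy
    refine one_loc Gr L S hst rfl ?_ rfl
    rw [hdiv0]; exact hxy

/-- every type is used at most four times -/
theorem sum_four (F : ℕ → ℝ) (hF : ∀ t, 0 ≤ F t) (S : ℕ) :
    ∑ s ∈ range (S + 1), ∑ t ∈ (Icc s (s + 3)).filter (· ≤ S), F t ≤
      4 * ∑ t ∈ range (S + 1), F t := by
  have h1 : ∀ s ∈ range (S + 1), ∑ t ∈ (Icc s (s + 3)).filter (· ≤ S), F t =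
      ∑ t ∈ range (S + 1), if s ≤ t ∧ t ≤ s + 3 then F t else 0 := by
    intro s _
    rw [← Finset.sum_filter]
    refine Finset.sum_congr ?_ fun _ _ => rfl
    ext t; simp only [mem_filter, mem_Icc, mem_range]; omega
  rw [Finset.sum_congr rfl h1, Finset.sum_comm, Finset.mul_sum]
  refine Finset.sum_le_sum fun t _ => ?_
  rw [← Finset.sum_filter, Finset.sum_const, nsmul_eq_mul]
  refine mul_le_mul_of_nonneg_right ?_ (hF t)
  have : ((range (S + 1)).filter (fun s => s ≤ t ∧ t ≤ s + 3)).card ≤ 4 := by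
    calc _ ≤ (Icc (t - 3) t).card := by
          refine Finset.card_le_card fun s hs => ?_
          simp only [mem_filter, mem_range, mem_Icc] at hs ⊢
          omega
      _ ≤ 4 := by rw [Nat.card_Icc]; omega
  exact_mod_cast this

open Classical in
/-- **STEP 4** of Part A (deterministic form).  `act s a x` = active blocks of the top
number `a` of scale `s` above the leaf `x`; `A` = the active blocks with type in
`[s, s+3]`. -/
theorem step4 (Gr : Grid) (L : Light C) (S n N : ℕ) (hn : 2 ^ S ∣ n)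
    (e : ℕ → X → ℕ → ℝ)
    (hg : ∀ j < n, ∀ x, ∀ b < N, 0 ≤ C.gain e j x b)
    (hG : ∀ s ≤ S, ∀ a < n / 2 ^ s, ∀ x, ∀ b < N, 0 ≤ C.bigGain e s a x b)
    (act : ℕ → ℕ → X → Finset ℕ)
    (lhs chg : ℕ → ℕ → X → ℕ → ℝ) (Cap : ℕ → ℕ → X → ℝ)
    (hlhs : ∀ s ≤ S, ∀ a < n / 2 ^ s, ∀ x, ∀ k ∈ act s a x, 0 ≤ lhs s a x k)
    (H3 : ∀ s ≤ S, ∀ a < n / 2 ^ s, ∀ x, ∀ A ⊆ act s a x,
      ∑ k ∈ A, lhs s a x k ≤
        2 * ∑ k ∈ A, ∑ b ∈ (range N).filter (fun b => Gr.blk s b = k), C.bigGain e s a x b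
        + ∑ k ∈ act s a x \ A, chg s a x k + Cap s a x) :
    ∑ s ∈ range (S + 1), ∑ a ∈ range (n / 2 ^ s), C.EE (fun x =>
        ∑ k ∈ (act s a x).filter (fun k => isTy Gr L S s (a * 2 ^ s) x (Gr.lo s k)),
          lhs s a x k) ≤
      8 * Gam C e n N
      + ∑ s ∈ range (S + 1), ∑ a ∈ range (n / 2 ^ s), C.EE (fun x =>
          ∑ k ∈ (act s a x).filter (fun k => ∀ t, s ≤ t → t ≤ s + 3 →
            ¬ isTy Gr L S t (a * 2 ^ s) x (Gr.lo s k)), chg s a x k)
      + ∑ s ∈ range (S + 1), ∑ a ∈ range (n / 2 ^ s), C.EE (fun x => Cap s a x) := by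
  -- one scale
  have main : ∀ s ∈ range (S + 1), ∑ a ∈ range (n / 2 ^ s), C.EE (fun x =>
        ∑ k ∈ (act s a x).filter (fun k => isTy Gr L S s (a * 2 ^ s) x (Gr.lo s k)),
          lhs s a x k) ≤
      2 * ∑ t ∈ (Icc s (s + 3)).filter (· ≤ S), GamT C Gr L S t e n N
      + ∑ a ∈ range (n / 2 ^ s), C.EE (fun x =>
          ∑ k ∈ (act s a x).filter (fun k => ∀ t, s ≤ t → t ≤ s + 3 →
            ¬ isTy Gr L S t (a * 2 ^ s) x (Gr.lo s k)), chg s a x k)
      + ∑ a ∈ range (n / 2 ^ s), C.EE (fun x => Cap s a x) := by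
    intro s hs
    have hsS : s ≤ S := Nat.lt_succ_iff.1 (Finset.mem_range.1 hs)
    have hdvd : n / 2 ^ s * 2 ^ s = n :=
      Nat.div_mul_cancel ((pow_dvd_pow 2 hsS).trans hn)
    have hGT : ∀ t ∈ (Icc s (s + 3)).filter (· ≤ S), GamT C Gr L S t e n N =
        ∑ a ∈ range (n / 2 ^ s), C.EE (fun x => ∑ b ∈ range N,
          one Gr L S t (a * 2 ^ s) x b * C.bigGain e s a x b) := by
      intro t ht
      simp only [mem_filter, mem_Icc] at ht
      rw [sum_bigGain Gr L S ht.1.1 e (n / 2 ^ s) N, hdvd]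
    rw [Finset.sum_congr rfl hGT, Finset.sum_comm, Finset.mul_sum, ← Finset.sum_add_distrib,
      ← Finset.sum_add_distrib]
    refine Finset.sum_le_sum fun a ha => ?_
    have ha' := Finset.mem_range.1 ha
    rw [← C.sum, ← C.smul, ← C.add, ← C.add]
    refine C.mono _ _ fun x => ?_
    set A := (act s a x).filter (fun k => ∃ t, s ≤ t ∧ t ≤ s + 3 ∧
      isTy Gr L S t (a * 2 ^ s) x (Gr.lo s k)) with hA
    have hsub : (act s a x).filter (fun k => isTy Gr L S s (a * 2 ^ s) x (Gr.lo s k)) ⊆ A := by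
      intro k hk
      simp only [mem_filter, hA] at hk ⊢
      exact ⟨hk.1, s, le_rfl, by omega, hk.2⟩
    have h1 : ∑ k ∈ (act s a x).filter (fun k => isTy Gr L S s (a * 2 ^ s) x (Gr.lo s k)),
        lhs s a x k ≤ ∑ k ∈ A, lhs s a x k := by
      refine Finset.sum_le_sum_of_subset_of_nonneg hsub fun k hk _ => ?_
      exact hlhs s hsS a ha' x k (Finset.mem_filter.1 hk).1
    have h2 := H3 s hsS a ha' x A (Finset.filter_subset _ _)
    have h3 : act s a x \ A = (act s a x).filter (fun k => ∀ t, s ≤ t → t ≤ s + 3 →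
        ¬ isTy Gr L S t (a * 2 ^ s) x (Gr.lo s k)) := by
      ext k
      simp only [hA, mem_sdiff, mem_filter, not_and, not_exists]
      constructor
      · rintro ⟨hk, h⟩
        exact ⟨hk, fun t h1 h2 => h hk t h1 h2⟩
      · rintro ⟨hk, h⟩
        exact ⟨hk, fun _ t h1 h2 => h t h1 h2⟩
    rw [h3] at h2
    -- the gains
    have h4 : ∑ k ∈ A, ∑ b ∈ (range N).filter (fun b => Gr.blk s b = k),
        C.bigGain e s a x b ≤ ∑ t ∈ (Icc s (s + 3)).filter (· ≤ S), ∑ b ∈ range N,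
          one Gr L S t (a * 2 ^ s) x b * C.bigGain e s a x b := by
      rw [Finset.sum_comm]
      have h5 : ∑ k ∈ A, ∑ b ∈ (range N).filter (fun b => Gr.blk s b = k),
          C.bigGain e s a x b = ∑ b ∈ range N, if Gr.blk s b ∈ A then
            C.bigGain e s a x b else 0 := by
        simp_rw [Finset.sum_filter]
        rw [Finset.sum_comm]
        refine Finset.sum_congr rfl fun b _ => ?_
        rw [Finset.sum_ite_eq A (Gr.blk s b) (fun _ => C.bigGain e s a x b)]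
      rw [h5]
      refine Finset.sum_le_sum fun b hb => ?_
      have hb' := Finset.mem_range.1 hb
      have hG0 := hG s hsS a ha' x b hb'
      rw [← Finset.sum_mul]
      split_ifs with hmem
      · simp only [hA, mem_filter] at hmem
        obtain ⟨_, t, ht1, ht2, ht3⟩ := hmem
        have ht4 : isTy Gr L S t (a * 2 ^ s) x b :=
          (isTy_loc ht1 rfl rfl (Gr.blk_lo s (Gr.blk s b))).1 ht3
        have h6 : (1 : ℝ) ≤ ∑ t ∈ (Icc s (s + 3)).filter (· ≤ S),
            one Gr L S t (a * 2 ^ s) x b := by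
          have h7 : one Gr L S t (a * 2 ^ s) x b = 1 := by unfold one; rw [if_pos ht4]
          rw [← h7]
          refine Finset.single_le_sum
            (f := fun t => one Gr L S t (a * 2 ^ s) x b)
            (fun i _ => one_nonneg _ _ _ _ _ _ _) ?_
          simp only [mem_filter, mem_Icc]
          exact ⟨⟨ht1, ht2⟩, ht4.1⟩
        calc C.bigGain e s a x b = 1 * C.bigGain e s a x b := (one_mul _).symm
          _ ≤ _ := mul_le_mul_of_nonneg_right h6 hG0
      · exact mul_nonneg (Finset.sum_nonneg fun _ _ => one_nonneg _ _ _ _ _ _ _) hG0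
    linarith
  refine (Finset.sum_le_sum main).trans ?_
  rw [Finset.sum_add_distrib, Finset.sum_add_distrib, ← Finset.mul_sum]
  have h8 : ∑ s ∈ range (S + 1), ∑ t ∈ (Icc s (s + 3)).filter (· ≤ S), GamT C Gr L S t e n N ≤
      4 * Gam C e n N :=
    (sum_four _ (fun t => GamT_nonneg Gr L S t e n N hg) S).trans
      (mul_le_mul_of_nonneg_left (sum_GamT_le Gr L S e n N hg _) (by norm_num))
  linarith

end P315.H295
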